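import Vale.Agent.Lib.P329.Hub

namespace Vale.Agent.Lib.P329

/-- Letter classes: `none` is the marked letter, `some j` is an unmarked letter of degree `j`. -/
abbrev K : Type := Option (Fin 3)

/-- Data of a word: its degree modulo three and, for each of the three phases, the parity of
the number of occurrences of the marked letter read in that phase. -/
abbrev Dat : Type := Fin 3 × Bool × Bool × Bool

def bget (b : Bool × Bool × Bool) (i : Fin 3) : Bool := (![b.1, b.2.1, b.2.2] : Fin 3 → Bool) i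

def btog (b : Bool × Bool × Bool) (i : Fin 3) : Bool × Bool × Bool :=
  (![(!b.1, b.2.1, b.2.2), (b.1, !b.2.1, b.2.2), (b.1, b.2.1, !b.2.2)] :
    Fin 3 → Bool × Bool × Bool) i

/-- One step of the data; `j0` is the degree of the marked letter. -/
def step (j0 : Fin 3) (d : Dat) : K → Dat
  | none => (d.1 + j0, btog d.2 d.1)
  | some j => (d.1 + j, d.2)

def dat (j0 : Fin 3) (w : List K) : Dat := w.foldl (step j0) (0, false, false, false)

theorem dat_snoc (j0 : Fin 3) (w : List K) (k : K) : dat j0 (w ++ [k]) = step j0 (dat j0 w) k := by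
  unfold dat
  rw [List.foldl_append]
  rfl

theorem run_snoc {α Q : Type} (δ : Q → α → Q) (p : Q) (w : List α) (k : α) :
    run δ p (w ++ [k]) = δ (run δ p w) k := by
  rw [run_append]
  rfl

/-! ### The nine-state automaton (marked letter of degree zero) -/

def sw01 : Fin 3 → Fin 3 := ![1, 0, 2]

def δ0 (q : Fin 3 × Fin 3) : K → Fin 3 × Fin 3
  | none => if q.1 = 0 then (0, sw01 q.2) else q
  | some j => (q.1 + j, if q.1 + j = 0 ∧ j ≠ 0 then q.2 + 1 else q.2)

def rk0 (q : Fin 3 × Fin 3) : ℕ := if q.1 = 0 then 2 * q.2.val - 1 else 2 * q.2.val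

def κ0 (ℓ : ℕ) : K → Option (Fin 3 × Fin 3)
  | none => none
  | some j =>
    if j = 1 then
      (if ℓ = 0 then some (2, 0) else if ℓ = 2 then some (2, 1) else if ℓ = 4 then some (2, 2)
        else none)
    else if j = 2 then
      (if ℓ = 0 then some (1, 0) else if ℓ = 2 then some (1, 1) else if ℓ = 4 then some (1, 2)
        else none)
    else none

theorem hub0 : ∀ (q : Fin 3 × Fin 3) (c : K), q ≠ (0, 0) →
    δ0 q c = (0, 0) ∨ rk0 q < rk0 (δ0 q c) ∨
      (rk0 (δ0 q c) = rk0 q ∧ (κ0 (rk0 q) c).getD q = δ0 q c) := by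
  decide

abbrev Tri : Type := Fin 3 × Fin 3 × Fin 3

def get3 (s : Tri) (f : Fin 3) : Fin 3 := (![s.1, s.2.1, s.2.2] : Fin 3 → Fin 3) f

def inj3 (s : Tri) : Prop := s.1 ≠ s.2.1 ∧ s.1 ≠ s.2.2 ∧ s.2.1 ≠ s.2.2

instance (s : Tri) : Decidable (inj3 s) := by
  unfold inj3
  infer_instance

def sgn3 (s : Tri) : Bool :=
  xor (xor (decide (s.2.1 < s.1)) (decide (s.2.2 < s.1))) (decide (s.2.2 < s.2.1))

def deg0 : K → Fin 3
  | none => 0
  | some j => j

def upd (ρ : Fin 3) (s : Tri) : K → Tri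
  | none => if ρ = 0 then (sw01 s.1, sw01 s.2.1, sw01 s.2.2) else s
  | some j => if ρ + j = 0 ∧ j ≠ 0 then (s.1 + 1, s.2.1 + 1, s.2.2 + 1) else s

theorem δ0_upd : ∀ (ρ : Fin 3) (s : Tri) (k : K) (f : Fin 3),
    δ0 (ρ, get3 s f) k = (ρ + deg0 k, get3 (upd ρ s k) f) := by
  decide

theorem upd_sgn : ∀ (ρ : Fin 3) (s : Tri) (k : K), inj3 s →
    inj3 (upd ρ s k) ∧ sgn3 (upd ρ s k) = xor (sgn3 s) (decide (k = none ∧ ρ = 0)) := by
  decide

theorem step0_fst : ∀ (d : Dat) (k : K), (step 0 d k).1 = d.1 + deg0 k := by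
  decide

theorem step0_bit : ∀ (r : Fin 3) (d : Dat) (k : K),
    bget (step 0 d k).2 (-r) = xor (bget d.2 (-r)) (decide (k = none ∧ r + d.1 = 0)) := by
  decide

theorem inv0_base : ∀ (r f : Fin 3),
    bget (false, false, false) (-r) = false ∧ (r, f) = (r + 0, get3 (0, 1, 2) f) := by
  decide

theorem inv0 (w : List K) (r : Fin 3) :
    ∃ s : Tri, inj3 s ∧ sgn3 s = bget (dat 0 w).2 (-r) ∧
      ∀ f, run δ0 (r, f) w = (r + (dat 0 w).1, get3 s f) := by
  induction w using List.reverseRecOn with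
  | nil =>
    refine ⟨(0, 1, 2), by decide, ?_, ?_⟩
    · exact ((inv0_base r 0).1).symm
    · intro f
      exact (inv0_base r f).2
  | append_singleton w k ih =>
    obtain ⟨s, h1, h2, h3⟩ := ih
    refine ⟨upd (r + (dat 0 w).1) s k, (upd_sgn _ s k h1).1, ?_, ?_⟩
    · rw [(upd_sgn _ s k h1).2, h2, dat_snoc, step0_bit]
    · intro f
      rw [run_snoc, h3 f, δ0_upd, dat_snoc, step0_fst, add_assoc]

theorem tri_ext : ∀ (s s' : Tri), (∀ f, get3 s f = get3 s' f) → s = s' := by
  decide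

theorem bget_ext : ∀ (b b' : Bool × Bool × Bool), (∀ r : Fin 3, bget b (-r) = bget b' (-r)) →
    b = b' := by
  decide

theorem det0 (u u' : List K) (hrun : ∀ p, run δ0 p u = run δ0 p u') : dat 0 u = dat 0 u' := by
  have key : ∀ r : Fin 3, (dat 0 u).1 = (dat 0 u').1 ∧
      bget (dat 0 u).2 (-r) = bget (dat 0 u').2 (-r) := by
    intro r
    obtain ⟨s, _, h2, h3⟩ := inv0 u r
    obtain ⟨s', _, h2', h3'⟩ := inv0 u' r
    have h4 : ∀ f, (r + (dat 0 u).1, get3 s f) = (r + (dat 0 u').1, get3 s' f) := by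
      intro f
      rw [← h3 f, ← h3' f]
      exact hrun (r, f)
    have h5 : s = s' := tri_ext s s' (fun f => (Prod.ext_iff.1 (h4 f)).2)
    have h6 : r + (dat 0 u).1 = r + (dat 0 u').1 := (Prod.ext_iff.1 (h4 0)).1
    refine ⟨add_left_cancel h6, ?_⟩
    rw [← h2, ← h2', h5]
  exact Prod.ext (key 0).1 (bget_ext _ _ (fun r => (key r).2))

/-! ### The four-state automata (marked letter of degree one or two) and the counter -/

def H1 : Fin 3 → Fin 4 → Fin 4 := ![![0, 1, 2, 3], ![1, 2, 0, 3], ![2, 0, 1, 3]]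

def Vt1 : Fin 3 → Fin 4 → Fin 4 := ![![1, 0, 3, 2], ![2, 3, 0, 1], ![3, 2, 1, 0]]

def H2 : Fin 3 → Fin 4 → Fin 4 := ![![0, 1, 2, 3], ![2, 0, 1, 3], ![1, 2, 0, 3]]

def Vt2 : Fin 3 → Fin 4 → Fin 4 := ![![1, 0, 3, 2], ![3, 2, 1, 0], ![2, 3, 0, 1]]

/-- The four-state automaton: the marked letter acts as the cycle `(0 2 3)`, an unmarked letter
of degree `j` as `H j`. -/
def δN (H : Fin 3 → Fin 4 → Fin 4) (q : Fin 4) : K → Fin 4
  | none => (![2, 1, 3, 0] : Fin 4 → Fin 4) q
  | some j => H j q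

def rkN : Fin 4 → ℕ := ![0, 0, 0, 1]

def κ1 (ℓ : ℕ) : K → Option (Fin 4)
  | none => none
  | some j => if ℓ = 0 then (if j = 1 then some 2 else if j = 2 then some 1 else none) else none

def κ2 (ℓ : ℕ) : K → Option (Fin 4)
  | none => none
  | some j => if ℓ = 0 then (if j = 1 then some 1 else if j = 2 then some 2 else none) else none

theorem hub1 : ∀ (q : Fin 4) (c : K), q ≠ 0 →
    δN H1 q c = 0 ∨ rkN q < rkN (δN H1 q c) ∨
      (rkN (δN H1 q c) = rkN q ∧ (κ1 (rkN q) c).getD q = δN H1 q c) := by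
  decide

theorem hub2 : ∀ (q : Fin 4) (c : K), q ≠ 0 →
    δN H2 q c = 0 ∨ rkN q < rkN (δN H2 q c) ∨
      (rkN (δN H2 q c) = rkN q ∧ (κ2 (rkN q) c).getD q = δN H2 q c) := by
  decide

def act (H V : Fin 3 → Fin 4 → Fin 4) (d : Dat) (p : Fin 4) : Fin 4 :=
  H d.1 (cond d.2.2.2 (V 2) id (cond d.2.2.1 (V 1) id (cond d.2.1 (V 0) id p)))

theorem act1_step : ∀ (d : Dat) (k : K) (p : Fin 4),
    act H1 Vt1 (step 1 d k) p = δN H1 (act H1 Vt1 d p) k := by
  decide +kernel

theorem act2_step : ∀ (d : Dat) (k : K) (p : Fin 4),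
    act H2 Vt2 (step 2 d k) p = δN H2 (act H2 Vt2 d p) k := by
  decide +kernel

theorem act_base : ∀ p : Fin 4, act H1 Vt1 (0, false, false, false) p = p ∧
    act H2 Vt2 (0, false, false, false) p = p := by
  decide

theorem inv1 (w : List K) (p : Fin 4) : run (δN H1) p w = act H1 Vt1 (dat 1 w) p := by
  induction w using List.reverseRecOn with
  | nil => exact ((act_base p).1).symm
  | append_singleton w k ih => rw [run_snoc, ih, dat_snoc, act1_step]

theorem inv2 (w : List K) (p : Fin 4) : run (δN H2) p w = act H2 Vt2 (dat 2 w) p := by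
  induction w using List.reverseRecOn with
  | nil => exact ((act_base p).2).symm
  | append_singleton w k ih => rw [run_snoc, ih, dat_snoc, act2_step]

/-- The counter automaton: the marked letter swaps the two states. -/
def δc (q : Fin 2) : K → Fin 2
  | none => q + 1
  | some _ => q

theorem hubc : ∀ (q : Fin 2) (c : K), q ≠ 0 →
    δc q c = 0 ∨ (fun _ : Fin 2 => 0) q < (fun _ : Fin 2 => 0) (δc q c) ∨
      ((fun _ : Fin 2 => 0) (δc q c) = (fun _ : Fin 2 => 0) q ∧
        ((fun (_ : ℕ) (_ : K) => (none : Option (Fin 2))) ((fun _ : Fin 2 => 0) q) c).getD q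
          = δc q c) := by
  decide

def par (d : Dat) : Fin 2 := if xor (xor d.2.1 d.2.2.1) d.2.2.2 then 1 else 0

theorem par_step : ∀ (j0 : Fin 3) (d : Dat) (k : K) (p : Fin 2),
    p + par (step j0 d k) = δc (p + par d) k := by
  decide

theorem invc (j0 : Fin 3) (w : List K) (p : Fin 2) : run δc p w = p + par (dat j0 w) := by
  induction w using List.reverseRecOn with
  | nil =>
    show p = p + par (0, false, false, false)
    have : par (0, false, false, false) = 0 := by decide
    rw [this, add_zero]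
  | append_singleton w k ih => rw [run_snoc, ih, dat_snoc, par_step]

theorem act1_inj : ∀ (d d' : Dat), (∀ p, act H1 Vt1 d p = act H1 Vt1 d' p) → par d = par d' →
    d = d' := by
  decide

theorem act2_inj : ∀ (d d' : Dat), (∀ p, act H2 Vt2 d p = act H2 Vt2 d' p) → par d = par d' →
    d = d' := by
  decide

theorem det1 (u u' : List K) (hrun : ∀ p, run (δN H1) p u = run (δN H1) p u')
    (hc : ∀ p, run δc p u = run δc p u') : dat 1 u = dat 1 u' := by
  apply act1_inj
  · intro p
    rw [← inv1, ← inv1]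
    exact hrun p
  · have := hc 0
    rw [invc 1, invc 1] at this
    exact add_left_cancel this

theorem det2 (u u' : List K) (hrun : ∀ p, run (δN H2) p u = run (δN H2) p u')
    (hc : ∀ p, run δc p u = run δc p u') : dat 2 u = dat 2 u' := by
  apply act2_inj
  · intro p
    rw [← inv2, ← inv2]
    exact hrun p
  · have := hc 0
    rw [invc 2, invc 2] at this
    exact add_left_cancel this

end Vale.Agent.Lib.P329
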