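import Vale.Agent.Lib.P329.Defs

namespace Vale.Agent.Lib.P329

open Language

variable {α : Type}

/-- `HLE n L`: the language `L` is denoted by a generalized regular expression of star height
at most `n`. -/
def HLE (n : ℕ) (L : Language α) : Prop := ∃ e : GRE α, e.height ≤ n ∧ e.lang = L

theorem lang_ext {L M : Language α} (hLM : ∀ w, w ∈ L ↔ w ∈ M) : L = M := Set.ext hLM

theorem mem_compl_lang {L : Language α} {w : List α} : w ∈ Lᶜ ↔ w ∉ L := Iff.rfl

theorem HLE.congr {n : ℕ} {L M : Language α} (hL : HLE n L) (hLM : ∀ w, w ∈ M ↔ w ∈ L) :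
    HLE n M := by
  have : M = L := lang_ext hLM
  rw [this]; exact hL

theorem HLE.mono {n m : ℕ} {L : Language α} (hnm : n ≤ m) (hL : HLE n L) : HLE m L := by
  obtain ⟨e, he, rfl⟩ := hL
  exact ⟨e, le_trans he hnm, rfl⟩

theorem HLE.zero (n : ℕ) : HLE n (0 : Language α) := ⟨GRE.zero, Nat.zero_le _, rfl⟩

theorem HLE.one (n : ℕ) : HLE n (1 : Language α) := ⟨GRE.one, Nat.zero_le _, rfl⟩

theorem HLE.letter (n : ℕ) (a : α) : HLE n ({[a]} : Language α) :=
  ⟨GRE.letter a, Nat.zero_le _, rfl⟩

theorem HLE.add {n : ℕ} {L M : Language α} (hL : HLE n L) (hM : HLE n M) : HLE n (L + M) := by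
  obtain ⟨e, he, rfl⟩ := hL
  obtain ⟨f, hf, rfl⟩ := hM
  exact ⟨GRE.plus e f, max_le he hf, rfl⟩

theorem HLE.mul {n : ℕ} {L M : Language α} (hL : HLE n L) (hM : HLE n M) : HLE n (L * M) := by
  obtain ⟨e, he, rfl⟩ := hL
  obtain ⟨f, hf, rfl⟩ := hM
  exact ⟨GRE.comp e f, max_le he hf, rfl⟩

theorem HLE.compl {n : ℕ} {L : Language α} (hL : HLE n L) : HLE n Lᶜ := by
  obtain ⟨e, he, rfl⟩ := hL
  exact ⟨GRE.neg e, he, rfl⟩

theorem HLE.star {n : ℕ} {L : Language α} (hL : HLE n L) : HLE (n + 1) (KStar.kstar L) := by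
  obtain ⟨e, he, rfl⟩ := hL
  exact ⟨GRE.star e, Nat.succ_le_succ he, rfl⟩

/-- The language of all words. -/
theorem HLE.all (n : ℕ) : HLE n ({_w | True} : Language α) := by
  refine (HLE.zero (α := α) n).compl.congr ?_
  intro w
  constructor
  · intro _
    exact fun hw => Language.notMem_zero w hw
  · intro _; trivial

theorem HLE.inter {n : ℕ} {L M : Language α} (hL : HLE n L) (hM : HLE n M) :
    HLE n ({w | w ∈ L ∧ w ∈ M} : Language α) := by
  refine (hL.compl.add hM.compl).compl.congr ?_
  intro w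
  constructor
  · rintro ⟨h1, h2⟩ hw
    rcases (Language.mem_add _ _ _).1 hw with h | h
    · exact h h1
    · exact h h2
  · intro hw
    constructor
    · by_contra h1
      exact hw ((Language.mem_add _ _ _).2 (Or.inl h1))
    · by_contra h2
      exact hw ((Language.mem_add _ _ _).2 (Or.inr h2))

theorem HLE.diff {n : ℕ} {L M : Language α} (hL : HLE n L) (hM : HLE n M) :
    HLE n ({w | w ∈ L ∧ w ∉ M} : Language α) :=
  (hL.inter hM.compl).congr (fun _ => Iff.rfl)

/-- Finite unions (over a finset). -/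
theorem HLE.finset_exists {n : ℕ} {ι : Type} (s : Finset ι) (F : ι → Language α)
    (hF : ∀ i ∈ s, HLE n (F i)) : HLE n ({w | ∃ i ∈ s, w ∈ F i} : Language α) := by
  classical
  induction s using Finset.induction_on with
  | empty =>
    refine (HLE.zero n).congr ?_
    intro w
    constructor
    · rintro ⟨i, hi, _⟩
      exact absurd hi (Finset.notMem_empty i)
    · intro hw
      exact absurd hw (Language.notMem_zero w)
  | insert a s _ ih =>
    have h1 : HLE n (F a) := hF a (Finset.mem_insert_self a s)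
    have h2 := ih (fun i hi => hF i (Finset.mem_insert_of_mem hi))
    refine (h1.add h2).congr ?_
    intro w
    constructor
    · rintro ⟨i, hi, hw⟩
      rcases Finset.mem_insert.1 hi with rfl | hi
      · exact (Language.mem_add _ _ _).2 (Or.inl hw)
      · exact (Language.mem_add _ _ _).2 (Or.inr ⟨i, hi, hw⟩)
    · intro hw
      rcases (Language.mem_add _ _ _).1 hw with hw | ⟨i, hi, hw⟩
      · exact ⟨a, Finset.mem_insert_self a s, hw⟩
      · exact ⟨i, Finset.mem_insert_of_mem hi, hw⟩

/-- Finite unions over a finite index type, with a side condition. -/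
theorem HLE.exists {n : ℕ} {ι : Type} [Fintype ι] (P : ι → Prop) (F : ι → Language α)
    (hF : ∀ i, P i → HLE n (F i)) : HLE n ({w | ∃ i, P i ∧ w ∈ F i} : Language α) := by
  classical
  have := HLE.finset_exists (n := n) (Finset.univ.filter P) F
    (fun i hi => hF i (Finset.mem_filter.1 hi).2)
  refine this.congr ?_
  intro w
  constructor
  · rintro ⟨i, hi, hw⟩
    exact ⟨i, Finset.mem_filter.2 ⟨Finset.mem_univ i, hi⟩, hw⟩
  · rintro ⟨i, hi, hw⟩
    exact ⟨i, (Finset.mem_filter.1 hi).2, hw⟩

/-- Finite intersections over a finite index type. -/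
theorem HLE.forall {n : ℕ} {ι : Type} [Fintype ι] (F : ι → Language α)
    (hF : ∀ i, HLE n (F i)) : HLE n ({w | ∀ i, w ∈ F i} : Language α) := by
  have := (HLE.exists (n := n) (fun _ : ι => True) (fun i => (F i)ᶜ) (fun i _ => (hF i).compl)).compl
  refine this.congr ?_
  intro w
  constructor
  · intro hw hex
    obtain ⟨i, _, hi⟩ := hex
    exact hi (hw i)
  · intro hw i
    by_contra hi
    exact hw ⟨i, trivial, hi⟩

/-- A language given by a decidable-free condition: either everything or nothing. -/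
theorem HLE.const (n : ℕ) (P : Prop) : HLE n ({_w | P} : Language α) := by
  by_cases hP : P
  · exact (HLE.all n).congr (fun _ => ⟨fun _ => trivial, fun _ => hP⟩)
  · exact (HLE.zero n).congr (fun w => ⟨fun hw => absurd hw hP, fun hw => absurd hw (Language.notMem_zero w)⟩)

/-- The empty word alone, under a side condition. -/
theorem HLE.nil_if (n : ℕ) (P : Prop) : HLE n ({w | P ∧ w = []} : Language α) := by
  by_cases hP : P
  · exact (HLE.one n).congr (fun w => ⟨fun hw => (Language.mem_one w).2 hw.2,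
      fun hw => ⟨hP, (Language.mem_one w).1 hw⟩⟩)
  · exact (HLE.zero n).congr (fun w => ⟨fun hw => absurd hw.1 hP,
      fun hw => absurd hw (Language.notMem_zero w)⟩)

/-- Words all of whose letters satisfy `P`. -/
theorem HLE.letters [Fintype α] (n : ℕ) (P : α → Prop) :
    HLE n ({w | ∀ a ∈ w, P a} : Language α) := by
  have h1 : HLE n ({w | ∃ a, ¬ P a ∧ w ∈ ({[a]} : Language α)} : Language α) :=
    HLE.exists (fun a => ¬ P a) (fun a => ({[a]} : Language α)) (fun a _ => HLE.letter n a)
  have h2 := (((HLE.all (α := α) n).mul h1).mul (HLE.all n)).compl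
  refine h2.congr ?_
  intro w
  constructor
  · intro hw hmem
    obtain ⟨x, hx, y, _, rfl⟩ := Language.mem_mul.1 hmem
    obtain ⟨u, _, v, hv, rfl⟩ := Language.mem_mul.1 hx
    obtain ⟨a, ha, hva⟩ := hv
    have hva' : v = [a] := hva
    subst hva'
    exact ha (hw a (by simp))
  · intro hw a ha
    by_contra hPa
    apply hw
    obtain ⟨u, v, rfl⟩ := List.append_of_mem ha
    refine Language.mem_mul.2 ⟨u ++ [a], Language.mem_mul.2 ⟨u, trivial, [a], ⟨a, hPa, rfl⟩, rfl⟩,
      v, trivial, by simp⟩

end Vale.Agent.Lib.P329
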