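import Mathlib

namespace Vale.Agent.Lib.P329

/-- Generalized regular expressions over an alphabet `α`: the constants `0`, `1`, the letters,
union, concatenation, complement and Kleene star. -/
inductive GRE (α : Type) : Type where
  | zero : GRE α
  | one : GRE α
  | letter : α → GRE α
  | plus : GRE α → GRE α → GRE α
  | comp : GRE α → GRE α → GRE α
  | neg : GRE α → GRE α
  | star : GRE α → GRE α

namespace GRE

variable {α : Type}

/-- The language denoted by a generalized regular expression (complement is taken in the set of
all words over `α`). -/
def lang : GRE α → Language α
  | zero => 0
  | one => 1
  | letter a => {[a]}
  | plus p q => p.lang + q.lang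
  | comp p q => p.lang * q.lang
  | neg p => (p.lang)ᶜ
  | star p => KStar.kstar p.lang

/-- The star height of a generalized regular expression. -/
def height : GRE α → ℕ
  | zero => 0
  | one => 0
  | letter _ => 0
  | plus p q => max p.height q.height
  | comp p q => max p.height q.height
  | neg p => p.height
  | star p => p.height + 1

end GRE

end Vale.Agent.Lib.P329
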