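import Vale.Agent.Lib.P329.Autos

set_option linter.unusedSectionVars false

namespace Vale.Agent.Lib.P329

variable {α : Type}

/-- If membership in `L` only depends on membership in finitely many languages of height at
most `n`, then `L` has height at most `n`. -/
theorem HLE.of_determined {n : ℕ} {ι : Type} [Fintype ι] (F : ι → Language α)
    (hF : ∀ i, HLE n (F i)) (L : Language α)
    (hL : ∀ u u' : List α, (∀ i, u ∈ F i ↔ u' ∈ F i) → u ∈ L → u' ∈ L) : HLE n L := by
  classical
  have hG : ∀ S : Finset ι,
      HLE n ({w | ∀ i, w ∈ (if i ∈ S then F i else (F i)ᶜ)} : Language α) := by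
    intro S
    refine HLE.forall _ (fun i => ?_)
    by_cases hi : i ∈ S
    · rw [if_pos hi]
      exact hF i
    · rw [if_neg hi]
      exact (hF i).compl
  have h1 := HLE.exists (n := n)
    (fun S : Finset ι => ∃ u, u ∈ L ∧ ∀ i, u ∈ F i ↔ i ∈ S) _ (fun S _ => hG S)
  refine h1.congr ?_
  intro w
  constructor
  · intro hw
    refine ⟨Finset.univ.filter (fun i => w ∈ F i), ⟨w, hw, fun i => by simp⟩, ?_⟩
    intro i
    by_cases hi : w ∈ F i
    · have hmem : i ∈ Finset.univ.filter (fun i => w ∈ F i) := by simp [hi]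
      rw [if_pos hmem]
      exact hi
    · have hmem : i ∉ Finset.univ.filter (fun i => w ∈ F i) := by simp [hi]
      rw [if_neg hmem]
      exact hi
  · rintro ⟨S, ⟨u, hu, huS⟩, hwS⟩
    refine hL u w ?_ hu
    intro i
    have h2 := hwS i
    by_cases hi : i ∈ S
    · rw [if_pos hi] at h2
      exact ⟨fun _ => h2, fun _ => (huS i).2 hi⟩
    · rw [if_neg hi] at h2
      exact ⟨fun h3 => absurd ((huS i).1 h3) hi, fun h3 => absurd h3 h2⟩

theorem run_map {Q β : Type} (δ : Q → β → Q) (g : α → β) (p : Q) (w : List α) :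
    run (fun q c => δ q (g c)) p w = run δ p (w.map g) := by
  induction w generalizing p with
  | nil => rfl
  | cons c w ih => exact ih (δ p (g c))

/-- Languages of a hub automaton over the letter classes, pulled back along a letter map. -/
theorem HLE_pull {Q : Type} [Fintype α] [Fintype Q] (δ : Q → K → Q) (h : Q) (rk : Q → ℕ)
    (κ : ℕ → K → Option Q)
    (hc : ∀ q c, q ≠ h → δ q c = h ∨ rk q < rk (δ q c) ∨
      (rk (δ q c) = rk q ∧ (κ (rk q) c).getD q = δ q c))
    (g : α → K) (p q : Q) : HLE 1 ({w | run δ p (w.map g) = q} : Language α) := by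
  have h1 := hub_criterion (fun q c => δ q (g c)) h rk (fun ℓ c => κ ℓ (g c))
    (fun q c hq => hc q (g c) hq) p q
  refine h1.congr ?_
  intro w
  have e := run_map δ g p w
  constructor
  · intro hw
    exact e.trans hw
  · intro hw
    exact e.symm.trans hw

theorem fin3_cases : ∀ x : Fin 3, x = 0 ∨ x = 1 ∨ x = 2 := by
  decide

section group

variable {G : Type} [Group G] (V : Subgroup G) [hN : V.Normal] (hV : ∀ v ∈ V, v * v = 1)
  (t : G) (ht : t ^ 3 = 1)

include hV in
theorem comm_of_sq (x y : G) (hx : x ∈ V) (hy : y ∈ V) : x * y = y * x := by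
  have h1 := hV x hx
  have h2 := hV y hy
  have h3 := hV (x * y) (V.mul_mem hx hy)
  have hx' : x⁻¹ = x := inv_eq_of_mul_eq_one_right h1
  have hy' : y⁻¹ = y := inv_eq_of_mul_eq_one_right h2
  have h4 : (x * y)⁻¹ = x * y := inv_eq_of_mul_eq_one_right h3
  rw [mul_inv_rev, hx', hy'] at h4
  exact h4.symm

/-- The power of `t` with exponent in `Fin 3`. -/
def tp (i : Fin 3) : G := t ^ (i : ℕ)

include ht in
theorem tp_add (a b : Fin 3) : tp t (a + b) = tp t a * tp t b := by
  unfold tp
  rw [← pow_add, Fin.val_add]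
  have h1 : ∀ n : ℕ, t ^ (n % 3) = t ^ n := by
    intro n
    conv_rhs => rw [← Nat.div_add_mod n 3, pow_add, pow_mul, ht, one_pow, one_mul]
  exact h1 _

theorem tp_zero : tp t 0 = 1 := by
  unfold tp
  simp

/-- `x` if the bit is set, and `1` otherwise. -/
def ee (b : Bool) (x : G) : G := if b then x else 1

theorem ee_not (b : Bool) (x : G) (hx : x * x = 1) : ee (!b) x = ee b x * x := by
  cases b
  · simp [ee]
  · simp [ee, hx]

theorem ee_mem (b : Bool) (x : G) (hx : x ∈ V) : ee b x ∈ V := by
  unfold ee
  split_ifs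
  · exact hx
  · exact V.one_mem

variable {β : Type} (j : β → Fin 3) (v : β → G)

/-- The conjugate of the `V`-part of the letter `a` by the power `ρ` of `t`. -/
def cj (a : β) (ρ : Fin 3) : G := tp t ρ * v a * (tp t ρ)⁻¹

/-- The element of `V` encoded by the three parities attached to the letter `a`. -/
def VP (a : β) (b : Bool × Bool × Bool) : G :=
  ee b.1 (cj t v a 0) * ee b.2.1 (cj t v a 1) * ee b.2.2 (cj t v a 2)

variable (hv : ∀ a, v a ∈ V)

include hN hv in
theorem cj_mem (a : β) (ρ : Fin 3) : cj t v a ρ ∈ V := hN.conj_mem _ (hv a) _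

include hN hv in
theorem VP_mem (a : β) (b : Bool × Bool × Bool) : VP t v a b ∈ V := by
  unfold VP
  exact V.mul_mem (V.mul_mem (ee_mem V _ _ (cj_mem V t v hv a 0))
    (ee_mem V _ _ (cj_mem V t v hv a 1))) (ee_mem V _ _ (cj_mem V t v hv a 2))

include hN hV hv in
theorem VP_btog (a : β) (b : Bool × Bool × Bool) (ρ : Fin 3) :
    VP t v a (btog b ρ) = VP t v a b * cj t v a ρ := by
  have m0 := cj_mem V t v hv a 0
  have m1 := cj_mem V t v hv a 1
  have m2 := cj_mem V t v hv a 2
  have s0 := hV _ m0
  have s1 := hV _ m1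
  have s2 := hV _ m2
  obtain ⟨b0, b1, b2⟩ := b
  rcases fin3_cases ρ with rfl | rfl | rfl
  · have e : btog (b0, b1, b2) 0 = (!b0, b1, b2) := rfl
    rw [e]
    show ee (!b0) (cj t v a 0) * ee b1 (cj t v a 1) * ee b2 (cj t v a 2)
      = ee b0 (cj t v a 0) * ee b1 (cj t v a 1) * ee b2 (cj t v a 2) * cj t v a 0
    rw [ee_not _ _ s0]
    have c := comm_of_sq V hV (cj t v a 0) (ee b1 (cj t v a 1) * ee b2 (cj t v a 2)) m0
      (V.mul_mem (ee_mem V _ _ m1) (ee_mem V _ _ m2))
    simp only [mul_assoc]
    rw [c]
    simp only [mul_assoc]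
  · have e : btog (b0, b1, b2) 1 = (b0, !b1, b2) := rfl
    rw [e]
    show ee b0 (cj t v a 0) * ee (!b1) (cj t v a 1) * ee b2 (cj t v a 2)
      = ee b0 (cj t v a 0) * ee b1 (cj t v a 1) * ee b2 (cj t v a 2) * cj t v a 1
    rw [ee_not _ _ s1]
    have c := comm_of_sq V hV (cj t v a 1) (ee b2 (cj t v a 2)) m1 (ee_mem V _ _ m2)
    simp only [mul_assoc]
    rw [c]
  · have e : btog (b0, b1, b2) 2 = (b0, b1, !b2) := rfl
    rw [e]
    show ee b0 (cj t v a 0) * ee b1 (cj t v a 1) * ee (!b2) (cj t v a 2)
      = ee b0 (cj t v a 0) * ee b1 (cj t v a 1) * ee b2 (cj t v a 2) * cj t v a 2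
    rw [ee_not _ _ s2]
    simp only [mul_assoc]

include hV in
/-- Multiplying one factor of a product of commuting involutions by `x` multiplies the product
by `x`. -/
theorem prod_toggle [DecidableEq β] (f : β → G) (hf : ∀ a, f a ∈ V) (c : β) (x : G) (hx : x ∈ V) :
    ∀ l : List β, l.Nodup → c ∈ l →
      (l.map (fun a => f a * if a = c then x else 1)).prod = (l.map f).prod * x := by
  intro l
  induction l with
  | nil =>
    intro _ hc
    exact absurd hc (List.not_mem_nil)
  | cons a l ih =>
    intro hl hc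
    have hal : a ∉ l := (List.nodup_cons.1 hl).1
    have hl' : l.Nodup := (List.nodup_cons.1 hl).2
    rw [List.map_cons, List.prod_cons, List.map_cons, List.prod_cons]
    by_cases hac : a = c
    · rw [if_pos hac]
      have h1 : l.map (fun a => f a * if a = c then x else 1) = l.map f := by
        apply List.map_congr_left
        intro b hb
        have hbc : b ≠ c := by
          intro hbc
          rw [hbc, ← hac] at hb
          exact hal hb
        rw [if_neg hbc, mul_one]
      rw [h1]
      have hP : (l.map f).prod ∈ V := by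
        apply Subgroup.list_prod_mem
        intro y hy
        obtain ⟨b, _, rfl⟩ := List.mem_map.1 hy
        exact hf b
      have c1 := comm_of_sq V hV x (l.map f).prod hx hP
      rw [mul_assoc, c1, mul_assoc]
    · rw [if_neg hac, mul_one]
      have hcl : c ∈ l := by
        rcases List.mem_cons.1 hc with h | h
        · exact absurd h.symm hac
        · exact h
      rw [ih hl' hcl, mul_assoc]

/-- The class of the letter `c` relative to the marked letter `a`. -/
def cls [DecidableEq β] (a c : β) : K := if c = a then none else some (j c)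

/-- The degree of a word. -/
def Jf (w : List β) : Fin 3 := (w.map j).sum

theorem Jf_snoc (w : List β) (c : β) : Jf j (w ++ [c]) = Jf j w + j c := by
  unfold Jf
  rw [List.map_append, List.sum_append, List.map_singleton, List.sum_singleton]

theorem dat_cls_snoc [DecidableEq β] (a : β) (w : List β) (c : β) :
    dat (j a) ((w ++ [c]).map (cls j a)) = step (j a) (dat (j a) (w.map (cls j a))) (cls j a c) := by
  rw [List.map_append, List.map_singleton, dat_snoc]

theorem dat_cls_fst [DecidableEq β] (a : β) (w : List β) :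
    (dat (j a) (w.map (cls j a))).1 = Jf j w := by
  induction w using List.reverseRecOn with
  | nil => rfl
  | append_singleton w c ih =>
    rw [dat_cls_snoc, Jf_snoc, ← ih]
    unfold cls
    by_cases hca : c = a
    · rw [if_pos hca, hca]
      rfl
    · rw [if_neg hca]
      rfl

theorem dat_cls_snd [DecidableEq β] (a : β) (w : List β) (c : β) :
    (dat (j a) ((w ++ [c]).map (cls j a))).2 =
      if a = c then btog (dat (j a) (w.map (cls j a))).2 (Jf j w)
      else (dat (j a) (w.map (cls j a))).2 := by
  rw [dat_cls_snoc, ← dat_cls_fst j a w]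
  unfold cls
  by_cases hca : c = a
  · rw [if_pos hca, if_pos hca.symm]
    rfl
  · rw [if_neg hca, if_neg (fun h => hca h.symm)]
    rfl

include hN hV ht hv in
/-- The value of a word: a product over the alphabet of elements of `V` encoded by parities,
times a power of `t`. -/
theorem prod_eq [DecidableEq β] (φ : β → G) (hφ : ∀ c, φ c = v c * tp t (j c)) (l : List β)
    (hl : l.Nodup) (hmem : ∀ c, c ∈ l) (w : List β) :
    (w.map φ).prod =
      (l.map (fun a => VP t v a (dat (j a) (w.map (cls j a))).2)).prod * tp t (Jf j w) := by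
  induction w using List.reverseRecOn with
  | nil =>
    have h1 : (l.map (fun a => VP t v a (dat (j a) (([] : List β).map (cls j a))).2)).prod = 1 := by
      apply List.prod_eq_one
      intro y hy
      obtain ⟨b, _, rfl⟩ := List.mem_map.1 hy
      show ee false _ * ee false _ * ee false _ = 1
      simp [ee]
    rw [h1]
    show (1 : G) = 1 * tp t 0
    rw [tp_zero, mul_one]
  | append_singleton w c ih =>
    rw [List.map_append, List.prod_append, List.map_singleton, List.prod_singleton, ih, Jf_snoc,
      tp_add t ht, hφ c]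
    have h1 : l.map (fun a => VP t v a (dat (j a) ((w ++ [c]).map (cls j a))).2) =
        l.map (fun a => VP t v a (dat (j a) (w.map (cls j a))).2 *
          if a = c then cj t v c (Jf j w) else 1) := by
      apply List.map_congr_left
      intro a _
      rw [dat_cls_snd]
      by_cases hac : a = c
      · rw [if_pos hac, if_pos hac, VP_btog V hV t v hv, hac]
      · rw [if_neg hac, if_neg hac, mul_one]
    rw [h1, prod_toggle V hV (fun a => VP t v a (dat (j a) (w.map (cls j a))).2)
      (fun a => VP_mem V t v hv a _) c (cj t v c (Jf j w)) (cj_mem V t v hv c _) l hl (hmem c)]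
    unfold cj
    group

end group

/-- The index type of the finite family of languages used for the determination. -/
abbrev Idx (β : Type) : Type :=
  β × (((Fin 3 × Fin 3) × (Fin 3 × Fin 3)) ⊕ ((Fin 4 × Fin 4) ⊕ ((Fin 4 × Fin 4) ⊕
    (Fin 2 × Fin 2))))

/-- The finite family of languages: for each marked letter, the languages of the nine-state
automaton, of the two four-state automata and of the counter. -/
def Fam {β : Type} [DecidableEq β] (j : β → Fin 3) : Idx β → Language β
  | (a, Sum.inl (p, q)) => {w | run δ0 p (w.map (cls j a)) = q}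
  | (a, Sum.inr (Sum.inl (p, q))) => {w | run (δN H1) p (w.map (cls j a)) = q}
  | (a, Sum.inr (Sum.inr (Sum.inl (p, q)))) => {w | run (δN H2) p (w.map (cls j a)) = q}
  | (a, Sum.inr (Sum.inr (Sum.inr (p, q)))) => {w | run δc p (w.map (cls j a)) = q}

theorem Fam_HLE {β : Type} [Fintype β] [DecidableEq β] (j : β → Fin 3) (i : Idx β) :
    HLE 1 (Fam j i) := by
  obtain ⟨a, (⟨p, q⟩ | ⟨p, q⟩ | ⟨p, q⟩ | ⟨p, q⟩)⟩ := i
  · exact HLE_pull δ0 (0, 0) rk0 κ0 hub0 (cls j a) p q
  · exact HLE_pull (δN H1) 0 rkN κ1 hub1 (cls j a) p q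
  · exact HLE_pull (δN H2) 0 rkN κ2 hub2 (cls j a) p q
  · exact HLE_pull δc 0 (fun _ => 0) (fun _ _ => none) hubc (cls j a) p q

theorem Fam_det {β : Type} [DecidableEq β] (j : β → Fin 3) (u u' : List β)
    (h : ∀ i, u ∈ Fam j i ↔ u' ∈ Fam j i) (a : β) :
    dat (j a) (u.map (cls j a)) = dat (j a) (u'.map (cls j a)) := by
  have r0 : ∀ p, run δ0 p (u.map (cls j a)) = run δ0 p (u'.map (cls j a)) := by
    intro p
    have h1 : u' ∈ Fam j (a, Sum.inl (p, run δ0 p (u.map (cls j a)))) :=
      (h (a, Sum.inl (p, run δ0 p (u.map (cls j a))))).1 rfl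
    exact h1.symm
  have r1 : ∀ p, run (δN H1) p (u.map (cls j a)) = run (δN H1) p (u'.map (cls j a)) := by
    intro p
    have h1 : u' ∈ Fam j (a, Sum.inr (Sum.inl (p, run (δN H1) p (u.map (cls j a))))) :=
      (h (a, Sum.inr (Sum.inl (p, run (δN H1) p (u.map (cls j a)))))).1 rfl
    exact h1.symm
  have r2 : ∀ p, run (δN H2) p (u.map (cls j a)) = run (δN H2) p (u'.map (cls j a)) := by
    intro p
    have h1 : u' ∈ Fam j (a, Sum.inr (Sum.inr (Sum.inl (p, run (δN H2) p (u.map (cls j a)))))) :=
      (h (a, Sum.inr (Sum.inr (Sum.inl (p, run (δN H2) p (u.map (cls j a))))))).1 rfl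
    exact h1.symm
  have rc : ∀ p, run δc p (u.map (cls j a)) = run δc p (u'.map (cls j a)) := by
    intro p
    have h1 : u' ∈ Fam j (a, Sum.inr (Sum.inr (Sum.inr (p, run δc p (u.map (cls j a)))))) :=
      (h (a, Sum.inr (Sum.inr (Sum.inr (p, run δc p (u.map (cls j a))))))).1 rfl
    exact h1.symm
  rcases fin3_cases (j a) with h0 | h0 | h0
  · rw [h0]
    exact det0 _ _ r0
  · rw [h0]
    exact det1 _ _ r1 rc
  · rw [h0]
    exact det2 _ _ r2 rc

/-- Core theorem: if `V` is a normal subgroup of `G` all of whose elements square to one and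
`G = V ⟨t⟩` with `t ^ 3 = 1`, then every language recognized by `G` is denoted by a generalized
regular expression of star height at most one. -/
theorem core {G : Type} [Group G] {α : Type} [Fintype α] (V : Subgroup G) [hN : V.Normal]
    (hV : ∀ v ∈ V, v * v = 1) (t : G) (ht : t ^ 3 = 1)
    (hG : ∀ g : G, ∃ v ∈ V, ∃ i : Fin 3, g = v * t ^ (i : ℕ)) (φ : α → G) (T : Set G) :
    HLE 1 ({w | (w.map φ).prod ∈ T} : Language α) := by
  classical
  choose v hv j hj using fun c => hG (φ c)
  refine HLE.of_determined (Fam j) (Fam_HLE j) _ ?_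
  intro u u' h hu
  have hd := Fam_det j u u' h
  have hJ : Jf j u = Jf j u' := by
    rcases isEmpty_or_nonempty α with he | ⟨⟨a⟩⟩
    · have e1 : u = [] := by
        cases u with
        | nil => rfl
        | cons a _ => exact (he.false a).elim
      have e2 : u' = [] := by
        cases u' with
        | nil => rfl
        | cons a _ => exact (he.false a).elim
      rw [e1, e2]
    · rw [← dat_cls_fst j a u, ← dat_cls_fst j a u', hd a]
  have key : (u.map φ).prod = (u'.map φ).prod := by
    rw [prod_eq V hV t ht j v hv φ hj Finset.univ.toList (Finset.nodup_toList _)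
        (fun c => Finset.mem_toList.2 (Finset.mem_univ c)) u,
      prod_eq V hV t ht j v hv φ hj Finset.univ.toList (Finset.nodup_toList _)
        (fun c => Finset.mem_toList.2 (Finset.mem_univ c)) u', hJ]
    congr 2
    apply List.map_congr_left
    intro a _
    rw [hd a]
  show (u'.map φ).prod ∈ T
  rw [← key]
  exact hu

end Vale.Agent.Lib.P329
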