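import Vale.Agent.Lib.P329.Basic

set_option linter.unusedSectionVars false

namespace Vale.Agent.Lib.P329

open Language

variable {α : Type} {Q : Type}

/-- The state reached from `p` by reading the word `w` in the deterministic automaton `δ`. -/
def run (δ : Q → α → Q) (p : Q) (w : List α) : Q := w.foldl δ p

@[simp] theorem run_nil (δ : Q → α → Q) (p : Q) : run δ p [] = p := rfl

@[simp] theorem run_cons (δ : Q → α → Q) (p : Q) (c : α) (w : List α) :
    run δ p (c :: w) = run δ (δ p c) w := rfl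

theorem run_append (δ : Q → α → Q) (p : Q) (u v : List α) :
    run δ p (u ++ v) = run δ (run δ p u) v := by
  unfold run
  exact List.foldl_append

/-- All states met along the run from `p` on `w` (start and end included) differ from `h`. -/
def avoid (δ : Q → α → Q) (h : Q) : Q → List α → Prop
  | p, [] => p ≠ h
  | p, c :: w => p ≠ h ∧ avoid δ h (δ p c) w

/-- All states met along the run from `p` on `w` differ from `h` and have rank `ℓ`. -/
def inlev (δ : Q → α → Q) (h : Q) (rk : Q → ℕ) (ℓ : ℕ) : Q → List α → Prop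
  | p, [] => p ≠ h ∧ rk p = ℓ
  | p, c :: w => p ≠ h ∧ rk p = ℓ ∧ inlev δ h rk ℓ (δ p c) w

/-- The formal state: the target of the last reset letter read, or the start state. -/
def fs (κ : α → Option Q) (p : Q) (w : List α) : Q := w.foldl (fun s c => (κ c).getD s) p

@[simp] theorem fs_nil (κ : α → Option Q) (p : Q) : fs κ p [] = p := rfl

@[simp] theorem fs_cons (κ : α → Option Q) (p : Q) (c : α) (w : List α) :
    fs κ p (c :: w) = fs κ ((κ c).getD p) w := rfl

theorem fs_append (κ : α → Option Q) (p : Q) (u v : List α) :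
    fs κ p (u ++ v) = fs κ (fs κ p u) v := by
  unfold fs
  exact List.foldl_append

theorem fs_of_none (κ : α → Option Q) (p : Q) (u : List α) (hu : ∀ c ∈ u, κ c = none) :
    fs κ p u = p := by
  induction u with
  | nil => rfl
  | cons c u ih =>
    have hc : κ c = none := hu c (by simp)
    rw [fs_cons, hc]
    exact ih (fun c' hc' => hu c' (by simp [hc']))

theorem fs_char (κ : α → Option Q) (p s : Q) (u : List α) :
    fs κ p u = s ↔ (s = p ∧ ∀ c ∈ u, κ c = none) ∨
      (∃ u₁ c u₂, u = u₁ ++ c :: u₂ ∧ κ c = some s ∧ ∀ c' ∈ u₂, κ c' = none) := by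
  constructor
  · intro hfs
    induction u generalizing p with
    | nil =>
      left
      exact ⟨hfs.symm, by simp⟩
    | cons c u ih =>
      rw [fs_cons] at hfs
      rcases ih _ hfs with ⟨h1, h2⟩ | ⟨u₁, c₁, u₂, rfl, h2, h3⟩
      · cases hκ : κ c with
        | none =>
          left
          rw [hκ] at h1
          refine ⟨h1, ?_⟩
          intro c' hc'
          rcases List.mem_cons.1 hc' with rfl | hc'
          · exact hκ
          · exact h2 c' hc'
        | some t =>
          right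
          rw [hκ] at h1
          refine ⟨[], c, u, rfl, ?_, h2⟩
          rw [hκ, h1]
          rfl
      · right
        exact ⟨c :: u₁, c₁, u₂, rfl, h2, h3⟩
  · rintro (⟨h1, h2⟩ | ⟨u₁, c, u₂, rfl, h2, h3⟩)
    · rw [h1]
      exact fs_of_none κ p u h2
    · rw [fs_append, fs_cons, h2]
      exact fs_of_none κ _ u₂ h3

theorem avoid_head {δ : Q → α → Q} {h : Q} {p : Q} {w : List α} (hw : avoid δ h p w) : p ≠ h := by
  cases w with
  | nil => exact hw
  | cons c w => exact hw.1

theorem inlev_head {δ : Q → α → Q} {h : Q} {rk : Q → ℕ} {ℓ : ℕ} {p : Q} {w : List α}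
    (hw : inlev δ h rk ℓ p w) : p ≠ h ∧ rk p = ℓ := by
  cases w with
  | nil => exact hw
  | cons c w => exact ⟨hw.1, hw.2.1⟩

theorem avoid_of_inlev {δ : Q → α → Q} {h : Q} {rk : Q → ℕ} {ℓ : ℕ} {p : Q} {w : List α}
    (hw : inlev δ h rk ℓ p w) : avoid δ h p w := by
  induction w generalizing p with
  | nil => exact hw.1
  | cons c w ih => exact ⟨hw.1, ih hw.2.2⟩

theorem inlev_run {δ : Q → α → Q} {h : Q} {rk : Q → ℕ} {ℓ : ℕ} {p : Q} {w : List α}
    (hw : inlev δ h rk ℓ p w) : run δ p w ≠ h ∧ rk (run δ p w) = ℓ := by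
  induction w generalizing p with
  | nil => exact hw
  | cons c w ih => exact ih hw.2.2

theorem avoid_append {δ : Q → α → Q} {h : Q} {p : Q} {u v : List α} :
    avoid δ h p (u ++ v) ↔ avoid δ h p u ∧ avoid δ h (run δ p u) v := by
  induction u generalizing p with
  | nil =>
    constructor
    · intro hv
      exact ⟨avoid_head hv, hv⟩
    · intro hv
      exact hv.2
  | cons c u ih =>
    constructor
    · intro hv
      have h1 : p ≠ h := hv.1
      have h2 := (ih (p := δ p c)).1 hv.2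
      exact ⟨⟨h1, h2.1⟩, h2.2⟩
    · intro hv
      exact ⟨hv.1.1, (ih (p := δ p c)).2 ⟨hv.1.2, hv.2⟩⟩

section hub

variable (δ : Q → α → Q) (h : Q) (rk : Q → ℕ) (κ : ℕ → α → Option Q)
  (hc : ∀ q c, q ≠ h → δ q c = h ∨ rk q < rk (δ q c) ∨
    (rk (δ q c) = rk q ∧ (κ (rk q) c).getD q = δ q c))

include hc

theorem inlev_char (ℓ : ℕ) (p q : Q) (hp : p ≠ h) (hℓ : rk p = ℓ) (w : List α) :
    (inlev δ h rk ℓ p w ∧ run δ p w = q) ↔
      ((∀ u c v, w = u ++ c :: v →
          (δ (fs (κ ℓ) p u) c ≠ h ∧ rk (δ (fs (κ ℓ) p u) c) = ℓ)) ∧ fs (κ ℓ) p w = q) := by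
  induction w generalizing p with
  | nil =>
    constructor
    · rintro ⟨_, h2⟩
      refine ⟨?_, h2⟩
      intro u c v huv
      exact absurd huv (by simp)
    · rintro ⟨_, h2⟩
      exact ⟨⟨hp, hℓ⟩, h2⟩
  | cons c w ih =>
    constructor
    · rintro ⟨h1, h2⟩
      have h3 : inlev δ h rk ℓ (δ p c) w := h1.2.2
      have h4 := inlev_head h3
      have h5 : (κ ℓ c).getD p = δ p c := by
        rcases hc p c hp with h6 | h6 | h6
        · exact absurd h6 h4.1
        · rw [hℓ, h4.2] at h6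
          exact absurd h6 (lt_irrefl _)
        · rw [hℓ] at h6
          exact h6.2
      have h7 := (ih (δ p c) h4.1 h4.2).1 ⟨h3, h2⟩
      refine ⟨?_, ?_⟩
      · intro u c₁ v huv
        cases u with
        | nil =>
          simp only [List.nil_append, List.cons.injEq] at huv
          obtain ⟨rfl, rfl⟩ := huv
          exact h4
        | cons c' u' =>
          simp only [List.cons_append, List.cons.injEq] at huv
          obtain ⟨rfl, rfl⟩ := huv
          rw [fs_cons, h5]
          exact h7.1 u' c₁ v rfl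
      · rw [fs_cons, h5]
        exact h7.2
    · rintro ⟨h1, h2⟩
      have h4 : δ p c ≠ h ∧ rk (δ p c) = ℓ := h1 [] c w rfl
      have h5 : (κ ℓ c).getD p = δ p c := by
        rcases hc p c hp with h6 | h6 | h6
        · exact absurd h6 h4.1
        · rw [hℓ, h4.2] at h6
          exact absurd h6 (lt_irrefl _)
        · rw [hℓ] at h6
          exact h6.2
      have h7 := (ih (δ p c) h4.1 h4.2).2 ⟨?_, ?_⟩
      · exact ⟨⟨hp, hℓ, h7.1⟩, h7.2⟩
      · intro u c₁ v huv
        have := h1 (c :: u) c₁ v (by rw [huv]; rfl)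
        rw [fs_cons, h5] at this
        exact this
      · rw [fs_cons, h5] at h2
        exact h2

theorem avoid_decomp (p : Q) (hp : p ≠ h) (w : List α) (hw : avoid δ h p w) :
    inlev δ h rk (rk p) p w ∨
      ∃ s c u v, w = u ++ c :: v ∧ inlev δ h rk (rk p) p u ∧ run δ p u = s ∧ δ s c ≠ h ∧
        rk p < rk (δ s c) ∧ avoid δ h (δ s c) v := by
  induction w generalizing p with
  | nil =>
    left
    exact ⟨hp, rfl⟩
  | cons c w ih =>
    have hp' : δ p c ≠ h := avoid_head hw.2
    rcases hc p c hp with h6 | h6 | h6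
    · exact absurd h6 hp'
    · right
      exact ⟨p, c, [], w, rfl, ⟨hp, rfl⟩, rfl, hp', h6, hw.2⟩
    · rcases ih (δ p c) hp' hw.2 with h7 | ⟨s, c₁, u, v, rfl, h8, h9, h10, h11, h12⟩
      · left
        rw [h6.1] at h7
        exact ⟨hp, rfl, h7⟩
      · right
        rw [h6.1] at h8 h11
        exact ⟨s, c₁, c :: u, v, rfl, ⟨hp, rfl, h8⟩, h9, h10, h11, h12⟩

variable [Fintype α] [Fintype Q]

omit hc in
theorem HLE_fs (κ' : α → Option Q) (p s : Q) :
    HLE 0 ({u | fs κ' p u = s} : Language α) := by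
  have hI : HLE 0 ({u | ∀ c ∈ u, κ' c = none} : Language α) := HLE.letters 0 _
  have h1 := (HLE.const (α := α) 0 (s = p)).inter hI
  have h2 := HLE.exists (n := 0) (fun c => κ' c = some s) _
    (fun c _ => ((HLE.all (α := α) 0).mul (HLE.letter 0 c)).mul hI)
  refine (h1.add h2).congr ?_
  intro u
  constructor
  · intro hu
    have hu' : fs κ' p u = s := hu
    rcases (fs_char κ' p s u).1 hu' with h3 | ⟨u₁, c, u₂, rfl, h4, h5⟩
    · exact (Language.mem_add _ _ _).2 (Or.inl h3)
    · exact (Language.mem_add _ _ _).2 (Or.inr ⟨c, h4, Language.mem_mul.2 ⟨u₁ ++ [c],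
        Language.mem_mul.2 ⟨u₁, trivial, [c], rfl, rfl⟩, u₂, h5, by simp⟩⟩)
  · intro hu
    show fs κ' p u = s
    rw [fs_char]
    rcases (Language.mem_add _ _ _).1 hu with h3 | ⟨c, h4, hmem⟩
    · exact Or.inl h3
    · obtain ⟨x, hx, u₂, h5, rfl⟩ := Language.mem_mul.1 hmem
      obtain ⟨u₁, _, y, hy, rfl⟩ := Language.mem_mul.1 hx
      have hy' : y = [c] := hy
      subst hy'
      exact Or.inr ⟨u₁, c, u₂, by simp, h4, h5⟩

theorem HLE_inlev (ℓ : ℕ) (p q : Q) (hp : p ≠ h) (hℓ : rk p = ℓ) :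
    HLE 0 ({w | inlev δ h rk ℓ p w ∧ run δ p w = q} : Language α) := by
  have hbad := HLE.exists (n := 0)
    (fun i : Q × α => ¬ (δ i.1 i.2 ≠ h ∧ rk (δ i.1 i.2) = ℓ)) _
    (fun i _ => ((HLE_fs (κ ℓ) p i.1).mul (HLE.letter 0 i.2)).mul (HLE.all (α := α) 0))
  refine ((HLE_fs (κ ℓ) p q).diff hbad).congr ?_
  intro w
  have hchar := inlev_char δ h rk κ hc ℓ p q hp hℓ w
  constructor
  · intro hw
    obtain ⟨h1, h2⟩ := hchar.1 hw
    refine ⟨h2, ?_⟩
    rintro ⟨i, hi, hmem⟩
    obtain ⟨x, hx, v, _, rfl⟩ := Language.mem_mul.1 hmem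
    obtain ⟨u, hu, y, hy, rfl⟩ := Language.mem_mul.1 hx
    have hy' : y = [i.2] := hy
    subst hy'
    have hu' : fs (κ ℓ) p u = i.1 := hu
    have h3 := h1 u i.2 v (by simp)
    rw [hu'] at h3
    exact hi h3
  · rintro ⟨h2, h1⟩
    refine hchar.2 ⟨?_, h2⟩
    intro u c v huv
    by_contra hcon
    apply h1
    refine ⟨(fs (κ ℓ) p u, c), hcon, ?_⟩
    rw [huv]
    exact Language.mem_mul.2 ⟨u ++ [c], Language.mem_mul.2 ⟨u, rfl, [c], rfl, rfl⟩, v, trivial,
      by simp⟩

theorem HLE_avoid_aux (M : ℕ) (hM : ∀ q, rk q < M) (q : Q) :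
    ∀ k (p : Q), p ≠ h → M ≤ rk p + k →
      HLE 0 ({w | avoid δ h p w ∧ run δ p w = q} : Language α) := by
  intro k
  induction k with
  | zero =>
    intro p _ hk
    have := hM p
    omega
  | succ k ih =>
    intro p hp hk
    have hW : ∀ s, HLE 0 ({w | inlev δ h rk (rk p) p w ∧ run δ p w = s} : Language α) :=
      fun s => HLE_inlev δ h rk κ hc (rk p) p s hp rfl
    have h2 := HLE.exists (n := 0)
      (fun i : Q × α => δ i.1 i.2 ≠ h ∧ rk p < rk (δ i.1 i.2)) _
      (fun i hi => ((hW i.1).mul (HLE.letter 0 i.2)).mul (ih (δ i.1 i.2) hi.1 (by omega)))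
    refine ((hW q).add h2).congr ?_
    intro w
    constructor
    · rintro ⟨h3, h4⟩
      rcases avoid_decomp δ h rk κ hc p hp w h3 with h5 | ⟨s, c, u, v, rfl, h6, h7, h8, h9, h10⟩
      · exact (Language.mem_add _ _ _).2 (Or.inl ⟨h5, h4⟩)
      · refine (Language.mem_add _ _ _).2 (Or.inr ⟨(s, c), ⟨h8, h9⟩, Language.mem_mul.2 ⟨u ++ [c],
          Language.mem_mul.2 ⟨u, ⟨h6, h7⟩, [c], rfl, rfl⟩, v, ⟨h10, ?_⟩, by simp⟩⟩)
        rw [run_append, run_cons, h7] at h4
        exact h4
    · intro hw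
      rcases (Language.mem_add _ _ _).1 hw with ⟨h5, h4⟩ | ⟨i, ⟨h8, _⟩, hmem⟩
      · exact ⟨avoid_of_inlev h5, h4⟩
      · obtain ⟨x, hx, v, ⟨h10, h11⟩, rfl⟩ := Language.mem_mul.1 hmem
        obtain ⟨u, ⟨h6, h7⟩, y, hy, rfl⟩ := Language.mem_mul.1 hx
        have hy' : y = [i.2] := hy
        subst hy'
        have h12 : run δ p (u ++ [i.2]) = δ i.1 i.2 := by
          rw [run_append, h7]
          rfl
        constructor
        · rw [avoid_append, avoid_append]
          refine ⟨⟨avoid_of_inlev h6, ?_⟩, ?_⟩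
          · rw [h7]
            have h13 : i.1 ≠ h := by
              have := (inlev_run h6).1
              rw [h7] at this
              exact this
            exact ⟨h13, h8⟩
          · rw [h12]
            exact h10
        · show run δ p (u ++ [i.2] ++ v) = q
          rw [run_append, h12]
          exact h11

end hub

section assembly

variable (δ : Q → α → Q) (h : Q)

theorem run_decomp (p q : Q) (hp : p ≠ h) (w : List α) (hw : run δ p w = q) :
    avoid δ h p w ∨
      ∃ u c v, w = u ++ c :: v ∧ avoid δ h p u ∧ δ (run δ p u) c = h ∧ run δ h v = q := by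
  induction w generalizing p with
  | nil =>
    left
    exact hp
  | cons c w ih =>
    by_cases hp' : δ p c = h
    · right
      refine ⟨[], c, w, rfl, hp, hp', ?_⟩
      rw [run_cons, hp'] at hw
      exact hw
    · rcases ih (δ p c) hp' hw with h1 | ⟨u, c₁, v, rfl, h2, h3, h4⟩
      · left
        exact ⟨hp, h1⟩
      · right
        exact ⟨c :: u, c₁, v, rfl, ⟨hp, h2⟩, h3, h4⟩

/-- First arrival at `h` from `p`. -/
def arr (p : Q) (w : List α) : Prop :=
  ∃ u c, w = u ++ [c] ∧ avoid δ h p u ∧ δ (run δ p u) c = h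

/-- First return to `h`. -/
def ret (w : List α) : Prop :=
  ∃ c v, w = c :: v ∧ ((δ h c = h ∧ v = []) ∨ (δ h c ≠ h ∧ arr δ h (δ h c) v))

/-- A path from `h` to `q` that never comes back to `h`. -/
def ext (q : Q) (w : List α) : Prop :=
  (q = h ∧ w = []) ∨
    ∃ c v, w = c :: v ∧ δ h c ≠ h ∧ avoid δ h (δ h c) v ∧ run δ (δ h c) v = q

/-- The language of first returns to `h`. -/
def retL : Language α := {w | ret δ h w}

theorem ret_run {w : List α} (hw : ret δ h w) : run δ h w = h := by
  obtain ⟨c, v, rfl, h1 | h1⟩ := hw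
  · rw [h1.2]
    exact h1.1
  · obtain ⟨u, c₁, rfl, _, h3⟩ := h1.2
    rw [run_cons, run_append]
    exact h3

theorem flatten_run (S : List (List α)) (hS : ∀ y ∈ S, y ∈ retL δ h) :
    run δ h S.flatten = h := by
  induction S with
  | nil => rfl
  | cons y S ih =>
    rw [List.flatten_cons, run_append, ret_run δ h (hS y (by simp))]
    exact ih (fun y' hy' => hS y' (by simp [hy']))

theorem kstar_run {x : List α} (hx : x ∈ KStar.kstar (retL δ h)) :
    run δ h x = h := by
  obtain ⟨S, rfl, hS⟩ := Language.mem_kstar.1 hx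
  exact flatten_run δ h S hS

theorem kstar_cons {L : Language α} {y x : List α} (hy : y ∈ L) (hx : x ∈ KStar.kstar L) :
    y ++ x ∈ KStar.kstar L := by
  obtain ⟨S, rfl, hS⟩ := Language.mem_kstar.1 hx
  refine Language.mem_kstar.2 ⟨y :: S, by simp, ?_⟩
  intro y' hy'
  rcases List.mem_cons.1 hy' with rfl | hy'
  · exact hy
  · exact hS y' hy'

theorem hub_decomp (q : Q) : ∀ (n : ℕ) (w : List α), w.length ≤ n → run δ h w = q →
    ∃ x e, w = x ++ e ∧ x ∈ KStar.kstar (retL δ h) ∧ ext δ h q e := by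
  intro n
  induction n with
  | zero =>
    intro w hw hq
    have hw' : w = [] := List.length_eq_zero_iff.1 (Nat.le_zero.1 hw)
    subst hw'
    exact ⟨[], [], rfl, Language.nil_mem_kstar _, Or.inl ⟨hq.symm, rfl⟩⟩
  | succ n ih =>
    intro w hw hq
    cases w with
    | nil => exact ⟨[], [], rfl, Language.nil_mem_kstar _, Or.inl ⟨hq.symm, rfl⟩⟩
    | cons c v =>
      have hv : v.length ≤ n := by
        simp only [List.length_cons] at hw
        omega
      by_cases hp' : δ h c = h
      · have hq' : run δ h v = q := by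
          rw [run_cons, hp'] at hq
          exact hq
        obtain ⟨x, e, rfl, hx, he⟩ := ih v hv hq'
        refine ⟨[c] ++ x, e, by simp, kstar_cons ?_ hx, he⟩
        exact ⟨c, [], rfl, Or.inl ⟨hp', rfl⟩⟩
      · rcases run_decomp δ h (δ h c) q hp' v hq with h1 | ⟨u, c₁, v₂, rfl, h2, h3, h4⟩
        · exact ⟨[], c :: v, rfl, Language.nil_mem_kstar _, Or.inr ⟨c, v, rfl, hp', h1, hq⟩⟩
        · have hv₂ : v₂.length ≤ n := by
            simp only [List.length_append, List.length_cons] at hv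
            omega
          obtain ⟨x, e, rfl, hx, he⟩ := ih v₂ hv₂ h4
          refine ⟨(c :: (u ++ [c₁])) ++ x, e, by simp, kstar_cons ?_ hx, he⟩
          exact ⟨c, u ++ [c₁], rfl, Or.inr ⟨hp', u, c₁, rfl, h2, h3⟩⟩

theorem ext_run {q : Q} {e : List α} (he : ext δ h q e) : run δ h e = q := by
  rcases he with ⟨h1, h2⟩ | ⟨c, v, rfl, _, _, h3⟩
  · rw [h2, h1]
    rfl
  · exact h3

end assembly

section main

variable [Fintype α] [Fintype Q] (δ : Q → α → Q) (h : Q) (rk : Q → ℕ) (κ : ℕ → α → Option Q)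
  (hc : ∀ q c, q ≠ h → δ q c = h ∨ rk q < rk (δ q c) ∨
    (rk (δ q c) = rk q ∧ (κ (rk q) c).getD q = δ q c))

include hc

/-- The hub criterion: if, outside the state `h`, every transition either leads to `h`, or
raises the rank, or stays in the same rank and acts there as the identity or as a reset, then
every language `{w | run δ p w = q}` has generalized star height at most one. -/
theorem hub_criterion (p q : Q) : HLE 1 ({w | run δ p w = q} : Language α) := by
  classical
  have hM : ∀ q, rk q < Finset.univ.sup rk + 1 := fun q =>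
    Nat.lt_succ_of_le (Finset.le_sup (f := rk) (Finset.mem_univ q))
  have hB : ∀ p q, p ≠ h → HLE 0 ({w | avoid δ h p w ∧ run δ p w = q} : Language α) :=
    fun p q hp => HLE_avoid_aux δ h rk κ hc _ hM q (Finset.univ.sup rk + 1) p hp (by omega)
  have hArr : ∀ p, p ≠ h → HLE 0 ({w | arr δ h p w} : Language α) := by
    intro p hp
    have h1 := HLE.exists (n := 0) (fun i : Q × α => δ i.1 i.2 = h) _
      (fun i _ => (hB p i.1 hp).mul (HLE.letter 0 i.2))
    refine h1.congr ?_
    intro w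
    constructor
    · rintro ⟨u, c, rfl, h2, h3⟩
      exact ⟨(run δ p u, c), h3, Language.mem_mul.2 ⟨u, ⟨h2, rfl⟩, [c], rfl, rfl⟩⟩
    · rintro ⟨i, h3, hmem⟩
      obtain ⟨u, ⟨h2, h4⟩, y, hy, rfl⟩ := Language.mem_mul.1 hmem
      have hy' : y = [i.2] := hy
      subst hy'
      refine ⟨u, i.2, rfl, h2, ?_⟩
      rw [h4]
      exact h3
  have hRet : HLE 0 (retL δ h) := by
    have h1 := HLE.exists (n := 0) (fun c : α => δ h c = h) _ (fun c _ => HLE.letter 0 c)
    have h2 := HLE.exists (n := 0) (fun c : α => δ h c ≠ h) _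
      (fun c hcc => (HLE.letter 0 c).mul (hArr (δ h c) hcc))
    refine (h1.add h2).congr ?_
    intro w
    constructor
    · rintro ⟨c, v, rfl, ⟨h3, h4⟩ | ⟨h3, h4⟩⟩
      · rw [h4]
        exact (Language.mem_add _ _ _).2 (Or.inl ⟨c, h3, rfl⟩)
      · exact (Language.mem_add _ _ _).2 (Or.inr ⟨c, h3, Language.mem_mul.2 ⟨[c], rfl, v, h4, rfl⟩⟩)
    · intro hw
      rcases (Language.mem_add _ _ _).1 hw with ⟨c, h3, hw'⟩ | ⟨c, h3, hmem⟩
      · have hw'' : w = [c] := hw'
        exact ⟨c, [], hw'', Or.inl ⟨h3, rfl⟩⟩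
      · obtain ⟨y, hy, v, h4, rfl⟩ := Language.mem_mul.1 hmem
        have hy' : y = [c] := hy
        subst hy'
        exact ⟨c, v, rfl, Or.inr ⟨h3, h4⟩⟩
  have hExt : ∀ q, HLE 0 ({w | ext δ h q w} : Language α) := by
    intro q
    have h1 : HLE 0 ({w | q = h ∧ w = []} : Language α) := HLE.nil_if 0 _
    have h2 := HLE.exists (n := 0) (fun c : α => δ h c ≠ h) _
      (fun c hcc => (HLE.letter 0 c).mul (hB (δ h c) q hcc))
    refine (h1.add h2).congr ?_
    intro w
    constructor
    · rintro (h3 | ⟨c, v, rfl, h3, h4, h5⟩)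
      · exact (Language.mem_add _ _ _).2 (Or.inl h3)
      · exact (Language.mem_add _ _ _).2
          (Or.inr ⟨c, h3, Language.mem_mul.2 ⟨[c], rfl, v, ⟨h4, h5⟩, rfl⟩⟩)
    · intro hw
      rcases (Language.mem_add _ _ _).1 hw with h3 | ⟨c, h3, hmem⟩
      · exact Or.inl h3
      · obtain ⟨y, hy, v, ⟨h4, h5⟩, rfl⟩ := Language.mem_mul.1 hmem
        have hy' : y = [c] := hy
        subst hy'
        exact Or.inr ⟨c, v, rfl, h3, h4, h5⟩
  have hHub : ∀ q, HLE 1 ({w | run δ h w = q} : Language α) := by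
    intro q
    refine (hRet.star.mul ((hExt q).mono (Nat.zero_le 1))).congr ?_
    intro w
    constructor
    · intro hw
      obtain ⟨x, e, rfl, hx, he⟩ := hub_decomp δ h q w.length w le_rfl hw
      exact Language.mem_mul.2 ⟨x, hx, e, he, rfl⟩
    · intro hmem
      obtain ⟨x, hx, e, he, rfl⟩ := Language.mem_mul.1 hmem
      show run δ h (x ++ e) = q
      rw [run_append, kstar_run δ h hx]
      exact ext_run δ h he
  by_cases hp : p = h
  · subst hp
    exact hHub q
  · refine (((hB p q hp).mono (Nat.zero_le 1)).add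
      (((hArr p hp).mono (Nat.zero_le 1)).mul (hHub q))).congr ?_
    intro w
    constructor
    · intro hw
      rcases run_decomp δ h p q hp w hw with h1 | ⟨u, c, v, rfl, h2, h3, h4⟩
      · exact (Language.mem_add _ _ _).2 (Or.inl ⟨h1, hw⟩)
      · exact (Language.mem_add _ _ _).2
          (Or.inr (Language.mem_mul.2 ⟨u ++ [c], ⟨u, c, rfl, h2, h3⟩, v, h4, by simp⟩))
    · intro hw
      rcases (Language.mem_add _ _ _).1 hw with ⟨_, hw'⟩ | hmem
      · exact hw'
      · obtain ⟨x, ⟨u, c, rfl, _, h3⟩, v, h4, rfl⟩ := Language.mem_mul.1 hmem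
        show run δ p (u ++ [c] ++ v) = q
        rw [run_append, run_append]
        show run δ (δ (run δ p u) c) v = q
        rw [h3]
        exact h4

end main

end Vale.Agent.Lib.P329
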