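import Vale.Agent.Lib.P329.Group

namespace Vale.Agent.Lib.P329

/-- A normal subgroup of index three all of whose elements square to one is complemented, up to
the subgroup itself, by an element of order dividing three. -/
theorem exists_t {G : Type} [Group G] (V : Subgroup G) [hN : V.Normal]
    (hV : ∀ v ∈ V, v * v = 1) (hi : V.index = 3) :
    ∃ t : G, t ^ 3 = 1 ∧ ∀ g : G, ∃ v ∈ V, ∃ i : Fin 3, g = v * t ^ (i : ℕ) := by
  have hcard : Nat.card (G ⧸ V) = 3 := by
    rw [← Subgroup.index_eq_card]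
    exact hi
  have hfact : Fact (Nat.Prime 3) := ⟨by norm_num⟩
  have hne : ∃ g, g ∉ V := by
    by_contra hcon
    have h1 : V = ⊤ :=
      (Subgroup.eq_top_iff' V).2 (fun g => by_contra (fun h => hcon ⟨g, h⟩))
    rw [h1, Subgroup.index_top] at hi
    omega
  obtain ⟨g, hg⟩ := hne
  have hq3 : ∀ y : G ⧸ V, y ^ 3 = 1 := by
    intro y
    rw [← hcard]
    exact pow_card_eq_one'
  have hg3 : g ^ 3 ∈ V := by
    have h1 := hq3 (g : G ⧸ V)
    rw [← QuotientGroup.mk_pow] at h1
    exact (QuotientGroup.eq_one_iff _).1 h1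
  have h6 : g ^ 3 * g ^ 3 = 1 := hV _ hg3
  have ht3 : (g ^ 4) ^ 3 = 1 := by
    have e : (g ^ 4) ^ 3 = (g ^ 3 * g ^ 3) * (g ^ 3 * g ^ 3) := by group
    rw [e, h6, mul_one]
  refine ⟨g ^ 4, ht3, ?_⟩
  have hq : ((g ^ 4 : G) : G ⧸ V) = (g : G ⧸ V) := by
    have e : g ^ 4 = g ^ 3 * g := by group
    rw [e, QuotientGroup.mk_mul, QuotientGroup.mk_pow, hq3, one_mul]
  have hgne : ((g ^ 4 : G) : G ⧸ V) ≠ 1 := by
    rw [hq]
    intro h1
    exact hg ((QuotientGroup.eq_one_iff _).1 h1)
  intro x
  have hx : (x : G ⧸ V) ∈ Submonoid.powers ((g ^ 4 : G) : G ⧸ V) :=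
    mem_powers_of_prime_card hcard hgne
  obtain ⟨n, hn⟩ := hx
  have hmod : ∀ n : ℕ, (g ^ 4) ^ (n % 3) = (g ^ 4) ^ n := by
    intro n
    conv_rhs => rw [← Nat.div_add_mod n 3, pow_add, pow_mul, ht3, one_pow, one_mul]
  refine ⟨x * ((g ^ 4) ^ (n % 3))⁻¹, ?_, ⟨n % 3, Nat.mod_lt _ (by norm_num)⟩, ?_⟩
  · apply (QuotientGroup.eq_one_iff _).1
    rw [hmod, QuotientGroup.mk_mul, QuotientGroup.mk_inv, QuotientGroup.mk_pow]
    rw [← hn]
    exact mul_inv_cancel _
  · show x = x * ((g ^ 4) ^ (n % 3))⁻¹ * (g ^ 4) ^ (n % 3)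
    rw [inv_mul_cancel_right]

/-- Every language recognized by a group with a normal subgroup of exponent dividing two and of
index three has generalized star height at most one. -/
theorem index_three {G : Type} [Group G] {α : Type} [Fintype α] (V : Subgroup G) [hN : V.Normal]
    (hV : ∀ v ∈ V, v * v = 1) (hi : V.index = 3) (φ : α → G) (T : Set G) :
    HLE 1 ({w | (w.map φ).prod ∈ T} : Language α) := by
  obtain ⟨t, ht, hG⟩ := exists_t V hV hi
  exact core V hV t ht hG φ T

/-- Every language recognized by the alternating group on four letters has generalized star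
height at most one. -/
theorem alt_four {α : Type} [Fintype α] (φ : α → alternatingGroup (Fin 4))
    (T : Set (alternatingGroup (Fin 4))) :
    HLE 1 ({w | (w.map φ).prod ∈ T} : Language α) := by
  have h4 : Nat.card (Fin 4) = 4 := by simp
  have hN : (alternatingGroup.kleinFour (Fin 4)).Normal := alternatingGroup.normal_kleinFour h4
  have hV : ∀ v ∈ alternatingGroup.kleinFour (Fin 4), v * v = 1 := by
    intro v hv
    have h1 : (⟨v, hv⟩ : alternatingGroup.kleinFour (Fin 4)) ^ 2 = 1 := by
      rw [← alternatingGroup.exponent_kleinFour_of_card_eq_four h4]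
      exact Monoid.pow_exponent_eq_one _
    have h2 := congrArg Subtype.val h1
    rw [← pow_two]
    exact h2
  have hi : (alternatingGroup.kleinFour (Fin 4)).index = 3 := by
    have h1 := (alternatingGroup.kleinFour (Fin 4)).index_mul_card
    rw [alternatingGroup.kleinFour_card_of_card_eq_four h4,
      alternatingGroup.card_of_card_eq_four h4] at h1
    omega
  exact index_three (alternatingGroup.kleinFour (Fin 4)) hV hi φ T

end Vale.Agent.Lib.P329
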