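import Vale.Agent.Lib.P329.Basic

/-!
Schutzenberger's theorem, in the direction used here: every language recognized by a finite
aperiodic monoid is star-free (generalized star height zero).

The proof is by induction on the size of the monoid, using local divisors (Kufleitner): for a
letter `c` whose image `m` is not the identity, the set `m M ∩ M m` with the product
`(x m) ∘ (m y) = x m y` is a smaller aperiodic monoid, and a word is cut at the occurrences of
`c` into blocks that are read as letters of an auxiliary alphabet.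
-/

namespace Vale.Agent.Lib.P329

open Language

/-- The local divisor of the monoid `M` at `m`: the elements of `m M ∩ M m`. -/
structure LocDiv {M : Type} [Monoid M] (m : M) : Type where
  val : M
  left : ∃ y, val = m * y
  right : ∃ y, val = y * m

namespace LocDiv

variable {M : Type} [Monoid M] {m : M}

theorem ext' {x y : LocDiv m} (h : x.val = y.val) : x = y := by
  obtain ⟨a, ha, ha'⟩ := x
  obtain ⟨b, hb, hb'⟩ := y
  simp only at h
  subst h
  rfl

theorem val_injective : Function.Injective (LocDiv.val : LocDiv m → M) := fun _ _ h => ext' h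

instance [Finite M] : Finite (LocDiv m) := Finite.of_injective LocDiv.val val_injective

/-- The product of the local divisor: `x ∘ y = x' * y` where `x = x' * m`. -/
noncomputable def mul' (x y : LocDiv m) : LocDiv m where
  val := Classical.choose x.right * y.val
  left := by
    obtain ⟨y2, hy2⟩ := y.left
    obtain ⟨x2, hx2⟩ := x.left
    have hx := Classical.choose_spec x.right
    refine ⟨x2 * y2, ?_⟩
    rw [hy2, ← mul_assoc (Classical.choose x.right) m y2, ← hx, hx2, mul_assoc]
  right := by
    obtain ⟨y1, hy1⟩ := y.right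
    refine ⟨Classical.choose x.right * y1, ?_⟩
    rw [hy1, mul_assoc]

theorem mul'_val (x y : LocDiv m) (z : M) (hz : x.val = z * m) :
    (mul' x y).val = z * y.val := by
  obtain ⟨y2, hy2⟩ := y.left
  have hx := Classical.choose_spec x.right
  show Classical.choose x.right * y.val = z * y.val
  rw [hy2, ← mul_assoc (Classical.choose x.right) m y2, ← hx, hz, mul_assoc]

/-- The identity of the local divisor is `m` itself. -/
def one' : LocDiv m := ⟨m, ⟨1, (mul_one m).symm⟩, ⟨1, (one_mul m).symm⟩⟩

noncomputable instance : Monoid (LocDiv m) where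
  mul := mul'
  one := one'
  mul_assoc := by
    intro x y z
    apply ext'
    obtain ⟨x1, hx1⟩ := x.right
    obtain ⟨y1, hy1⟩ := y.right
    have h1 : (mul' x y).val = x1 * y.val := mul'_val x y x1 hx1
    have h2 : (mul' x y).val = (x1 * y1) * m := by rw [h1, hy1, mul_assoc]
    show (mul' (mul' x y) z).val = (mul' x (mul' y z)).val
    rw [mul'_val (mul' x y) z (x1 * y1) h2, mul'_val x (mul' y z) x1 hx1,
      mul'_val y z y1 hy1, mul_assoc]
  one_mul := by
    intro x
    apply ext'
    show (mul' one' x).val = x.val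
    rw [mul'_val one' x 1 (one_mul m).symm, one_mul]
  mul_one := by
    intro x
    apply ext'
    obtain ⟨x1, hx1⟩ := x.right
    show (mul' x one').val = x.val
    rw [mul'_val x one' x1 hx1]
    exact hx1.symm

theorem val_mul (x y : LocDiv m) (z : M) (hz : x.val = z * m) : (x * y).val = z * y.val :=
  mul'_val x y z hz

theorem val_one : (1 : LocDiv m).val = m := rfl

theorem val_pow (x : LocDiv m) (z : M) (hz : x.val = z * m) (k : ℕ) :
    (x ^ k).val = z ^ k * m := by
  induction k with
  | zero => rw [pow_zero, pow_zero, one_mul, val_one]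
  | succ k ih => rw [pow_succ, val_mul _ x _ ih, hz, pow_succ, mul_assoc]

theorem aperiodic (hM : ∀ x : M, ∃ n : ℕ, x ^ n = x ^ (n + 1)) (x : LocDiv m) :
    ∃ n : ℕ, x ^ n = x ^ (n + 1) := by
  obtain ⟨z, hz⟩ := x.right
  obtain ⟨n, hn⟩ := hM z
  refine ⟨n, ext' ?_⟩
  rw [val_pow x z hz, val_pow x z hz, ← hn]

theorem card_lt [Finite M] (hM : ∀ x : M, ∃ n : ℕ, x ^ n = x ^ (n + 1)) (hm : m ≠ 1) :
    Nat.card (LocDiv m) < Nat.card M := by
  have := Fintype.ofFinite M
  have := Fintype.ofFinite (LocDiv m)
  rw [Nat.card_eq_fintype_card, Nat.card_eq_fintype_card]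
  apply Fintype.card_lt_of_injective_not_surjective LocDiv.val val_injective
  intro hsurj
  obtain ⟨x, hx⟩ := hsurj 1
  obtain ⟨y, hy⟩ := x.left
  rw [hx] at hy
  obtain ⟨n, hn⟩ := hM m
  have h1 : ∀ k : ℕ, m ^ k * y ^ k = 1 := by
    intro k
    induction k with
    | zero => simp
    | succ k ih =>
      rw [pow_succ, pow_succ', mul_assoc, ← mul_assoc m y, ← hy, one_mul, ih]
  apply hm
  calc m = m * (m ^ n * y ^ n) := by rw [h1, mul_one]
    _ = m ^ (n + 1) * y ^ n := by rw [← mul_assoc, ← pow_succ']
    _ = m ^ n * y ^ n := by rw [← hn]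
    _ = 1 := h1 n

end LocDiv

/-- The letter map into the local divisor: `t ↦ m t m`. -/
def psi {M : Type} [Monoid M] (m : M) (t : M) : LocDiv m :=
  ⟨m * t * m, ⟨t * m, mul_assoc m t m⟩, ⟨m * t, rfl⟩⟩

/-- Words that are empty or end with the letter `c`. -/
def EndsC {α : Type} (c : α) (w : List α) : Prop := w = [] ∨ ∃ u, w = u ++ [c]

theorem endsC_tail {α : Type} {c : α} {u w : List α} (h : EndsC c (u ++ c :: w)) :
    EndsC c w := by
  rcases List.eq_nil_or_concat w with hw | ⟨L, b, hw⟩
  · exact Or.inl hw
  · rcases h with h | ⟨v, hv⟩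
    · exact absurd h (by simp)
    · subst hw
      have h2 : (u ++ c :: L) ++ [b] = v ++ [c] := by rw [← hv]; simp
      have h3 := (List.append_inj' h2 rfl).2
      have hb : b = c := by simpa using h3
      rw [hb]
      exact Or.inr ⟨L, by simp⟩

theorem endsC_cons_append {α : Type} {c : α} {u w : List α} (h : EndsC c w) :
    EndsC c (u ++ c :: w) := by
  rcases h with h | ⟨v, hv⟩
  · subst h
    exact Or.inr ⟨u, rfl⟩
  · subst hv
    exact Or.inr ⟨u ++ c :: v, by simp⟩

theorem endsC_append {α : Type} {c : α} {w1 w2 : List α} (h1 : EndsC c w1) (h2 : EndsC c w2) :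
    EndsC c (w1 ++ w2) := by
  rcases h2 with h | ⟨v, hv⟩
  · subst h
    rw [List.append_nil]
    exact h1
  · subst hv
    exact Or.inr ⟨w1 ++ v, by simp⟩

theorem endsC_decomp {α : Type} (c : α) (r : List α) :
    ∃ mid u1, r = mid ++ u1 ∧ EndsC c mid ∧ c ∉ u1 := by
  induction r with
  | nil => exact ⟨[], [], rfl, Or.inl rfl, by simp⟩
  | cons a r ih =>
    obtain ⟨mid, u1, rfl, hmid, hu1⟩ := ih
    rcases hmid with hmid | ⟨v, hv⟩
    · subst hmid
      by_cases ha : a = c
      · exact ⟨[c], u1, by simp [ha], Or.inr ⟨[], rfl⟩, hu1⟩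
      · refine ⟨[], a :: u1, by simp, Or.inl rfl, ?_⟩
        intro h
        rcases List.mem_cons.1 h with h | h
        · exact ha h.symm
        · exact hu1 h
    · subst hv
      exact ⟨a :: (v ++ [c]), u1, by simp, Or.inr ⟨a :: v, by simp⟩, hu1⟩

theorem hle_endsC {α : Type} (c : α) : HLE 0 ({w | EndsC c w} : Language α) := by
  refine ((HLE.one 0).add ((HLE.all 0).mul (HLE.letter 0 c))).congr ?_
  intro w
  constructor
  · rintro (h | ⟨u, rfl⟩)
    · exact (Language.mem_add _ _ _).2 (Or.inl ((Language.mem_one w).2 h))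
    · exact (Language.mem_add _ _ _).2 (Or.inr (Language.mem_mul.2 ⟨u, trivial, [c], rfl, rfl⟩))
  · intro h
    rcases (Language.mem_add _ _ _).1 h with h | h
    · exact Or.inl ((Language.mem_one w).1 h)
    · obtain ⟨u, _, v, hv, rfl⟩ := Language.mem_mul.1 h
      have hv' : v = [c] := hv
      subst hv'
      exact Or.inr ⟨u, rfl⟩

section Words

variable {M α : Type} [Monoid M] [DecidableEq α] (φ : α → M) (c : α)

/-- Cut a word at every `c`, and output the value of each `c`-free block that is followed by a
`c` (the block after the last `c` is dropped). -/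
def cutGo : M → List α → List M
  | _, [] => []
  | acc, a :: w => if a = c then acc :: cutGo 1 w else cutGo (acc * φ a) w

theorem cutGo_free (acc : M) (u : List α) (hu : c ∉ u) : cutGo φ c acc u = [] := by
  induction u generalizing acc with
  | nil => rfl
  | cons a u ih =>
    have ha : a ≠ c := fun h => hu (by rw [h]; exact List.mem_cons_self)
    have hu' : c ∉ u := fun h => hu (List.mem_cons_of_mem _ h)
    simp only [cutGo, if_neg ha]
    exact ih _ hu'

theorem cutGo_split (acc : M) (u w : List α) (hu : c ∉ u) :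
    cutGo φ c acc (u ++ c :: w) = (acc * (u.map φ).prod) :: cutGo φ c 1 w := by
  induction u generalizing acc with
  | nil => simp [cutGo]
  | cons a u ih =>
    have ha : a ≠ c := fun h => hu (by rw [h]; exact List.mem_cons_self)
    have hu' : c ∉ u := fun h => hu (List.mem_cons_of_mem _ h)
    simp only [List.cons_append, cutGo, if_neg ha, List.map_cons, List.prod_cons]
    rw [ih _ hu', mul_assoc]

theorem cutGo_append_end (acc : M) (u w : List α) :
    cutGo φ c acc ((u ++ [c]) ++ w) = cutGo φ c acc (u ++ [c]) ++ cutGo φ c 1 w := by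
  induction u generalizing acc with
  | nil => simp [cutGo]
  | cons a u ih =>
    by_cases ha : a = c
    · simp only [List.cons_append, cutGo, if_pos ha]
      rw [ih 1]
    · simp only [List.cons_append, cutGo, if_neg ha]
      exact ih _

theorem cut_append {w1 : List α} (w2 : List α) (h : EndsC c w1) :
    cutGo φ c 1 (w1 ++ w2) = cutGo φ c 1 w1 ++ cutGo φ c 1 w2 := by
  rcases h with h | ⟨u, hu⟩
  · subst h
    simp [cutGo]
  · subst hu
    exact cutGo_append_end φ c 1 u w2

theorem endsC_cut_nil {w : List α} (hE : EndsC c w) (h : cutGo φ c 1 w = []) : w = [] := by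
  rcases hE with hE | ⟨u, hu⟩
  · exact hE
  · exfalso
    have hcw : c ∈ w := by rw [hu]; simp
    obtain ⟨u', w', rfl, hu'⟩ := List.eq_append_cons_of_mem hcw
    rw [cutGo_split φ c 1 u' w' hu'] at h
    simp at h

theorem cut_unappend : ∀ (x y : List M) (w : List α), EndsC c w → cutGo φ c 1 w = x ++ y →
    ∃ w1 w2, EndsC c w1 ∧ EndsC c w2 ∧ w = w1 ++ w2 ∧ cutGo φ c 1 w1 = x ∧
      cutGo φ c 1 w2 = y := by
  intro x
  induction x with
  | nil =>
    intro y w hE h
    exact ⟨[], w, Or.inl rfl, hE, rfl, rfl, by simpa using h⟩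
  | cons t x ih =>
    intro y w hE h
    have hcw : c ∈ w := by
      by_contra hn
      rw [cutGo_free φ c 1 w hn] at h
      simp at h
    obtain ⟨u, w', rfl, hu⟩ := List.eq_append_cons_of_mem hcw
    rw [cutGo_split φ c 1 u w' hu, List.cons_append] at h
    have h1 : 1 * (u.map φ).prod = t := (List.cons.inj h).1
    have h2 : cutGo φ c 1 w' = x ++ y := (List.cons.inj h).2
    obtain ⟨w1, w2, hE1, hE2, rfl, hc1, hc2⟩ := ih y w' (endsC_tail hE) h2
    refine ⟨u ++ c :: w1, w2, endsC_cons_append hE1, hE2, by simp, ?_, hc2⟩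
    rw [cutGo_split φ c 1 u w1 hu, h1, hc1]

theorem cut_prod : ∀ (k : ℕ) (w : List α), w.length ≤ k → EndsC c w →
    φ c * (w.map φ).prod = (((cutGo φ c 1 w).map (psi (φ c))).prod).val := by
  intro k
  induction k with
  | zero =>
    intro w hw _
    have hw' : w = [] := List.eq_nil_of_length_eq_zero (Nat.le_zero.1 hw)
    subst hw'
    simp [cutGo, LocDiv.val_one]
  | succ k ih =>
    intro w hw hE
    by_cases hcw : c ∈ w
    · obtain ⟨u, w', rfl, hu⟩ := List.eq_append_cons_of_mem hcw
      have hlen : w'.length ≤ k := by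
        simp only [List.length_append, List.length_cons] at hw
        omega
      have ih' := ih w' hlen (endsC_tail hE)
      rw [cutGo_split φ c 1 u w' hu, List.map_cons, List.prod_cons,
        LocDiv.val_mul _ _ (φ c * (1 * (u.map φ).prod)) rfl, ← ih']
      simp [mul_assoc]
    · have hw' : w = [] := by
        rcases hE with h | ⟨u, hu⟩
        · exact h
        · exact absurd (by rw [hu]; simp) hcw
      subst hw'
      simp [cutGo, LocDiv.val_one]

/-- Words over the letters of `T` whose value is `q`. -/
def LBlang (T : Finset α) (q : M) : Language α :=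
  {w | (∀ a ∈ w, a ∈ T) ∧ (w.map φ).prod = q}

/-- Words over the letters of `S`, empty or ending with `c`, whose sequence of blocks lies in
the language `K` over the auxiliary alphabet. -/
def SubLang (S : Finset α) (K : Language M) : Language α :=
  {w | EndsC c w ∧ (∀ a ∈ w, a ∈ S) ∧ cutGo φ c 1 w ∈ K}

theorem sub_hle [Fintype α] (S : Finset α) (hc : c ∈ S)
    (hB : ∀ q : M, HLE 0 (LBlang φ (S.erase c) q)) :
    ∀ e : GRE M, e.height ≤ 0 → HLE 0 (SubLang φ c S e.lang) := by
  intro e
  induction e with
  | zero =>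
    intro _
    refine (HLE.zero 0).congr ?_
    intro w
    constructor
    · rintro ⟨_, _, h⟩
      exact absurd h (Language.notMem_zero _)
    · intro h
      exact absurd h (Language.notMem_zero _)
  | one =>
    intro _
    refine (HLE.one 0).congr ?_
    intro w
    constructor
    · rintro ⟨hE, _, h⟩
      have h' : cutGo φ c 1 w = [] := (Language.mem_one _).1 h
      exact (Language.mem_one w).2 (endsC_cut_nil φ c hE h')
    · intro h
      have hw : w = [] := (Language.mem_one w).1 h
      subst hw
      exact ⟨Or.inl rfl, by simp, (Language.mem_one _).2 rfl⟩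
  | letter t =>
    intro _
    refine ((hB t).mul (HLE.letter 0 c)).congr ?_
    intro w
    constructor
    · rintro ⟨hE, hS, h⟩
      have h' : cutGo φ c 1 w = [t] := h
      have hcw : c ∈ w := by
        by_contra hn
        rw [cutGo_free φ c 1 w hn] at h'
        simp at h'
      obtain ⟨u, w', rfl, hu⟩ := List.eq_append_cons_of_mem hcw
      rw [cutGo_split φ c 1 u w' hu] at h'
      have h1 : 1 * (u.map φ).prod = t := (List.cons.inj h').1
      have h2 : cutGo φ c 1 w' = [] := (List.cons.inj h').2
      have hw' : w' = [] := endsC_cut_nil φ c (endsC_tail hE) h2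
      subst hw'
      refine Language.mem_mul.2 ⟨u, ⟨?_, ?_⟩, [c], rfl, rfl⟩
      · intro a ha
        refine Finset.mem_erase.2 ⟨?_, hS a (by simp [ha])⟩
        intro hac
        rw [hac] at ha
        exact hu ha
      · rw [← h1, one_mul]
    · intro h
      obtain ⟨u, ⟨hu1, hu2⟩, v, hv, rfl⟩ := Language.mem_mul.1 h
      have hv' : v = [c] := hv
      subst hv'
      have huc : c ∉ u := fun hcu => (Finset.mem_erase.1 (hu1 c hcu)).1 rfl
      refine ⟨Or.inr ⟨u, rfl⟩, ?_, ?_⟩
      · intro a ha
        rcases List.mem_append.1 ha with ha | ha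
        · exact (Finset.mem_erase.1 (hu1 a ha)).2
        · have hac : a = c := by simpa using ha
          rw [hac]
          exact hc
      · show cutGo φ c 1 (u ++ [c]) = [t]
        rw [cutGo_split φ c 1 u [] huc, hu2, one_mul]
        rfl
  | plus p q ihp ihq =>
    intro h
    have hp : p.height ≤ 0 := le_trans (le_max_left _ _) h
    have hq : q.height ≤ 0 := le_trans (le_max_right _ _) h
    refine ((ihp hp).add (ihq hq)).congr ?_
    intro w
    constructor
    · rintro ⟨hE, hS, h⟩
      rcases (Language.mem_add _ _ _).1 h with h | h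
      · exact (Language.mem_add _ _ _).2 (Or.inl ⟨hE, hS, h⟩)
      · exact (Language.mem_add _ _ _).2 (Or.inr ⟨hE, hS, h⟩)
    · intro h
      rcases (Language.mem_add _ _ _).1 h with ⟨hE, hS, h⟩ | ⟨hE, hS, h⟩
      · exact ⟨hE, hS, (Language.mem_add _ _ _).2 (Or.inl h)⟩
      · exact ⟨hE, hS, (Language.mem_add _ _ _).2 (Or.inr h)⟩
  | comp p q ihp ihq =>
    intro h
    have hp : p.height ≤ 0 := le_trans (le_max_left _ _) h
    have hq : q.height ≤ 0 := le_trans (le_max_right _ _) h
    refine ((ihp hp).mul (ihq hq)).congr ?_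
    intro w
    constructor
    · rintro ⟨hE, hS, h⟩
      obtain ⟨x, hx, y, hy, hxy⟩ := Language.mem_mul.1 h
      obtain ⟨w1, w2, hE1, hE2, rfl, h1, h2⟩ := cut_unappend φ c x y w hE hxy.symm
      refine Language.mem_mul.2 ⟨w1, ⟨hE1, fun a ha => hS a (List.mem_append_left _ ha), ?_⟩,
        w2, ⟨hE2, fun a ha => hS a (List.mem_append_right _ ha), ?_⟩, rfl⟩
      · rw [h1]
        exact hx
      · rw [h2]
        exact hy
    · intro h
      obtain ⟨w1, ⟨hE1, hS1, h1⟩, w2, ⟨hE2, hS2, h2⟩, rfl⟩ := Language.mem_mul.1 h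
      refine ⟨endsC_append hE1 hE2, ?_, ?_⟩
      · intro a ha
        rcases List.mem_append.1 ha with ha | ha
        · exact hS1 a ha
        · exact hS2 a ha
      · rw [cut_append φ c w2 hE1]
        exact Language.mem_mul.2 ⟨_, h1, _, h2, rfl⟩
  | neg p ih =>
    intro h
    have hp : p.height ≤ 0 := h
    have hES : HLE 0 ({w : List α | w ∈ ({w | EndsC c w} : Language α) ∧
        w ∈ ({w | ∀ a ∈ w, a ∈ S} : Language α)} : Language α) :=
      (hle_endsC c).inter (HLE.letters 0 (fun a => a ∈ S))
    refine (hES.diff (ih hp)).congr ?_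
    intro w
    constructor
    · rintro ⟨hE, hS, h⟩
      exact ⟨⟨hE, hS⟩, fun h' => h h'.2.2⟩
    · rintro ⟨⟨hE, hS⟩, h⟩
      exact ⟨hE, hS, fun h' => h ⟨hE, hS, h'⟩⟩
  | star p _ =>
    intro h
    exact absurd h (by simp [GRE.height])

end Words

/-- One step of the induction: the statement for `M`, for every set `S` of allowed letters,
from the statement for all smaller aperiodic monoids. -/
theorem schutz_step (M : Type) [Monoid M] [Finite M]
    (hM : ∀ x : M, ∃ n : ℕ, x ^ n = x ^ (n + 1))
    (IH : ∀ (D : Type) [Monoid D] [Finite D], Nat.card D < Nat.card M →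
      (∀ x : D, ∃ n : ℕ, x ^ n = x ^ (n + 1)) →
      ∀ (β : Type) [Fintype β] (ψ : β → D) (d : D),
        HLE 0 ({v : List β | (v.map ψ).prod = d} : Language β))
    (α : Type) [Fintype α] [DecidableEq α] (φ : α → M) (S : Finset α) :
    ∀ p : M, HLE 0 (LBlang φ S p) := by
  induction S using Finset.strongInduction with
  | H S ih =>
    intro p
    by_cases hall : ∀ a ∈ S, φ a = 1
    · refine ((HLE.letters 0 (fun a => a ∈ S)).inter (HLE.const 0 (1 = p))).congr ?_
      intro w
      have key : (∀ a ∈ w, a ∈ S) → (w.map φ).prod = 1 := by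
        intro hw
        apply List.prod_eq_one
        intro x hx
        obtain ⟨a, ha, rfl⟩ := List.mem_map.1 hx
        exact hall a (hw a ha)
      constructor
      · rintro ⟨hw, hp⟩
        refine ⟨hw, ?_⟩
        show 1 = p
        rw [← hp, key hw]
      · rintro ⟨hw, hp⟩
        refine ⟨hw, ?_⟩
        have hp' : 1 = p := hp
        rw [key hw]
        exact hp'
    · obtain ⟨c, hcS, hc1⟩ : ∃ c ∈ S, φ c ≠ 1 := by
        by_contra hno
        apply hall
        intro a ha
        by_contra h1
        exact hno ⟨a, ha, h1⟩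
      have hB : ∀ q : M, HLE 0 (LBlang φ (S.erase c) q) :=
        ih (S.erase c) (Finset.erase_ssubset hcS)
      have : Fintype M := Fintype.ofFinite M
      have : Fintype (LocDiv (φ c)) := Fintype.ofFinite _
      have hX : ∀ d : LocDiv (φ c),
          HLE 0 (SubLang φ c S ({v : List M | (v.map (psi (φ c))).prod = d} : Language M)) := by
        intro d
        obtain ⟨e, he, hlang⟩ :=
          IH (LocDiv (φ c)) (LocDiv.card_lt hM hc1) (LocDiv.aperiodic hM) M (psi (φ c)) d
        rw [← hlang]
        exact sub_hle φ c S hcS hB e he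
      have hfin := HLE.exists (n := 0)
        (fun i : M × LocDiv (φ c) × M => i.1 * i.2.1.val * i.2.2 = p)
        (fun i => (LBlang φ (S.erase c) i.1 * ({[c]} : Language α) *
          SubLang φ c S ({v : List M | (v.map (psi (φ c))).prod = i.2.1} : Language M) *
          LBlang φ (S.erase c) i.2.2 : Language α))
        (fun i _ => (((hB i.1).mul (HLE.letter 0 c)).mul (hX i.2.1)).mul (hB i.2.2))
      refine ((hB p).add hfin).congr ?_
      intro w
      constructor
      · rintro ⟨hS, hp⟩
        by_cases hcw : c ∈ w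
        · apply (Language.mem_add _ _ _).2
          right
          obtain ⟨u0, rest, rfl, hu0⟩ := List.eq_append_cons_of_mem hcw
          obtain ⟨mid, u1, rfl, hmid, hu1⟩ := endsC_decomp c rest
          have hS0 : ∀ a ∈ u0, a ∈ S.erase c := by
            intro a ha
            refine Finset.mem_erase.2 ⟨?_, hS a (by simp [ha])⟩
            intro hac
            rw [hac] at ha
            exact hu0 ha
          have hSm : ∀ a ∈ mid, a ∈ S := fun a ha => hS a (by simp [ha])
          have hS1 : ∀ a ∈ u1, a ∈ S.erase c := by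
            intro a ha
            refine Finset.mem_erase.2 ⟨?_, hS a (by simp [ha])⟩
            intro hac
            rw [hac] at ha
            exact hu1 ha
          refine ⟨((u0.map φ).prod, ((cutGo φ c 1 mid).map (psi (φ c))).prod,
            (u1.map φ).prod), ?_, ?_⟩
          · show (u0.map φ).prod * (((cutGo φ c 1 mid).map (psi (φ c))).prod).val *
              (u1.map φ).prod = p
            rw [← cut_prod φ c _ mid le_rfl hmid, ← hp]
            simp [mul_assoc]
          · refine Language.mem_mul.2 ⟨u0 ++ [c] ++ mid, Language.mem_mul.2 ⟨u0 ++ [c],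
              Language.mem_mul.2 ⟨u0, ⟨hS0, rfl⟩, [c], rfl, rfl⟩, mid, ⟨hmid, hSm, rfl⟩, rfl⟩,
              u1, ⟨hS1, rfl⟩, by simp⟩
        · exact (Language.mem_add _ _ _).2 (Or.inl
            ⟨fun a ha => Finset.mem_erase.2 ⟨fun h => hcw (h ▸ ha), hS a ha⟩, hp⟩)
      · intro h
        rcases (Language.mem_add _ _ _).1 h with ⟨hS, hp⟩ | ⟨i, hi, hw⟩
        · exact ⟨fun a ha => (Finset.mem_erase.1 (hS a ha)).2, hp⟩
        · obtain ⟨x, hx, u1, ⟨hu1S, hu1p⟩, rfl⟩ := Language.mem_mul.1 hw
          obtain ⟨y, hy, mid, ⟨hmidE, hmidS, hmidp⟩, rfl⟩ := Language.mem_mul.1 hx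
          obtain ⟨u0, ⟨hu0S, hu0p⟩, v, hv, rfl⟩ := Language.mem_mul.1 hy
          have hv' : v = [c] := hv
          subst hv'
          have hmidp' : ((cutGo φ c 1 mid).map (psi (φ c))).prod = i.2.1 := hmidp
          refine ⟨?_, ?_⟩
          · intro a ha
            simp only [List.mem_append, List.mem_singleton] at ha
            rcases ha with ((ha | ha) | ha) | ha
            · exact (Finset.mem_erase.1 (hu0S a ha)).2
            · rw [ha]
              exact hcS
            · exact hmidS a ha
            · exact (Finset.mem_erase.1 (hu1S a ha)).2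
          · show ((u0 ++ [c] ++ mid ++ u1).map φ).prod = p
            rw [← hi, ← hu0p, ← hmidp', ← hu1p, ← cut_prod φ c _ mid le_rfl hmidE]
            simp [mul_assoc]

/-- Schutzenberger: the inverse image of a point under a morphism to a finite aperiodic monoid
is a star-free language. -/
theorem schutz_all : ∀ (N : ℕ) (M : Type) [Monoid M] [Finite M], Nat.card M = N →
    (∀ x : M, ∃ n : ℕ, x ^ n = x ^ (n + 1)) →
    ∀ (α : Type) [Fintype α] (φ : α → M) (p : M),
      HLE 0 ({w : List α | (w.map φ).prod = p} : Language α) := by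
  intro N
  induction N using Nat.strong_induction_on with
  | _ N ih =>
    intro M _ _ hcard hM α _ φ p
    classical
    have h := schutz_step M hM
      (fun D _ _ hlt hD β _ ψ d => ih (Nat.card D) (hcard ▸ hlt) D rfl hD β ψ d)
      α φ Finset.univ p
    refine h.congr ?_
    intro w
    constructor
    · intro hw
      exact ⟨fun a _ => Finset.mem_univ a, hw⟩
    · intro hw
      exact hw.2

theorem schutzenberger {M : Type} [Monoid M] [Finite M]
    (hM : ∀ x : M, ∃ n : ℕ, x ^ n = x ^ (n + 1))
    {α : Type} [Fintype α] (φ : α → M) (p : M) :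
    HLE 0 ({w : List α | (w.map φ).prod = p} : Language α) :=
  schutz_all (Nat.card M) M rfl hM α φ p

end Vale.Agent.Lib.P329
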